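import Vale.Agent.P097.H531.CD.Defs

/-! # P097 / case [d], Row Sel: selection of the heights -/

set_option linter.all false

open Filter Topology Set

namespace Vale.Agent.P097.CD.Sel

/-- slopes of a concave function decrease -/
theorem slopes {Y : ℝ → ℝ} {s₀ : ℝ} (hY : ConcaveOn ℝ (Ici s₀) Y) {a b c d : ℝ} (ha : s₀ ≤ a)
    (hab : a < b) (hbc : b ≤ c) (hcd : c < d) :
    (Y d - Y c) / (d - c) ≤ (Y b - Y a) / (b - a) := by
  rcases hbc.lt_or_eq with h | h
  · have h1 := hY.slope_anti_adjacent (x := a) (y := b) (z := c) ha (ha.trans (hab.trans h).le) hab h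
    have h2 := hY.slope_anti_adjacent (x := b) (y := c) (z := d) (ha.trans hab.le)
      (ha.trans (hab.trans (h.trans hcd)).le) h hcd
    exact h2.trans h1
  · subst h
    exact hY.slope_anti_adjacent (x := a) (y := b) (z := d) ha (ha.trans (hab.trans hcd).le) hab hcd

/-- `D` and the linear bounds from the ratio of two slopes -/
theorem lin {Y : ℝ → ℝ} {s₀ : ℝ} (hY : ConcaveOn ℝ (Ici s₀) Y) (hm : MonotoneOn Y (Ici s₀))
    {s K : ℝ} (hK : 1 ≤ K) (hs : s₀ ≤ s - K - 1)
    (hr : (1 - 1 / (2 * K)) * (Y (s - K) - Y (s - K - 1)) ≤ Y (s + K + 1) - Y (s + K)) :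
    ∃ D : ℝ, Y (s + K + 1) - Y (s + K) ≤ D ∧
      ∀ τ : ℝ, |τ| ≤ K → Y s + D * (τ - 1) ≤ Y (s + τ) ∧ Y (s + τ) ≤ Y s + D * τ := by
  set S : Set ℝ := {x | ∃ τ : ℝ, 0 < τ ∧ x = (Y (s + τ) - Y s) / τ} with hS
  have hle : ∀ x ∈ S, ∀ τ' : ℝ, 0 < τ' → s₀ ≤ s - τ' → x ≤ (Y s - Y (s - τ')) / τ' := by
    rintro x ⟨τ, hτ, rfl⟩ τ' h1 h2
    have h3 := slopes hY (a := s - τ') (b := s) (c := s) (d := s + τ) h2 (by linarith) le_rfl
      (by linarith)
    have e1 : s + τ - s = τ := by ring
    have e2 : s - (s - τ') = τ' := by ring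
    rwa [e1, e2] at h3
  have hne : S.Nonempty := ⟨_, 1, one_pos, rfl⟩
  have hbd : BddAbove S := ⟨(Y s - Y (s - 1)) / 1, fun x hx => hle x hx 1 one_pos (by linarith)⟩
  set D := sSup S with hD
  have hD1 : ∀ τ : ℝ, 0 < τ → (Y (s + τ) - Y s) / τ ≤ D := fun τ hτ => le_csSup hbd ⟨τ, hτ, rfl⟩
  have hD2 : ∀ τ' : ℝ, 0 < τ' → s₀ ≤ s - τ' → D ≤ (Y s - Y (s - τ')) / τ' :=
    fun τ' h1 h2 => csSup_le hne fun x hx => hle x hx τ' h1 h2
  set dp := Y (s + K + 1) - Y (s + K) with hdp
  set dm := Y (s - K) - Y (s - K - 1) with hdm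
  have hK0 : 0 < K := by linarith
  have hdpD : dp ≤ D := by
    have h1 := slopes hY (a := s) (b := s + K) (c := s + K) (d := s + K + 1) (by linarith)
      (by linarith) le_rfl (by linarith)
    have e1 : s + K + 1 - (s + K) = 1 := by ring
    have e2 : s + K - s = K := by ring
    rw [e1, e2, div_one] at h1
    exact h1.trans (hD1 K hK0)
  have hDdm : D ≤ dm := by
    have h1 := slopes hY (a := s - K - 1) (b := s - K) (c := s - K) (d := s) (by linarith)
      (by linarith) le_rfl (by linarith)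
    have e1 : s - (s - K) = K := by ring
    have e2 : s - K - (s - K - 1) = 1 := by ring
    rw [e1, e2, div_one] at h1
    exact (hD2 K hK0 (by linarith)).trans h1
  have hdp0 : 0 ≤ dp := sub_nonneg.2 (hm (show s₀ ≤ s + K by linarith)
    (show s₀ ≤ s + K + 1 by linarith) (by linarith))
  have hD0 : 0 ≤ D := hdp0.trans hdpD
  have hx : (0 : ℝ) < 1 - 1 / (2 * K) := by
    have : 1 / (2 * K) ≤ 1 / 2 := by
      apply div_le_div_of_nonneg_left (by norm_num) (by norm_num) (by linarith)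
    linarith
  -- `(1 - 1/K) D ≤ dp`
  have h1 : (1 - 1 / K) * D ≤ dp := by
    have h2 : (1 - 1 / (2 * K)) * D ≤ dp := (mul_le_mul_of_nonneg_left hDdm hx.le).trans hr
    have h3 : 1 / (2 * K) ≤ 1 / K := div_le_div_of_nonneg_left (by norm_num) hK0 (by linarith)
    nlinarith
  -- `dm ≤ (1 + 1/K) D`
  have h2 : dm ≤ (1 + 1 / K) * D := by
    have h3 : (1 - 1 / (2 * K)) * dm ≤ D := hr.trans hdpD
    have h4 : 1 ≤ (1 + 1 / K) * (1 - 1 / (2 * K)) := by
      have h5 : (1 + 1 / K) * (1 - 1 / (2 * K)) - 1 = (K - 1) / (2 * K ^ 2) := by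
        field_simp; ring
      have h6 : 0 ≤ (K - 1) / (2 * K ^ 2) := by
        apply div_nonneg (by linarith) (by positivity)
      linarith
    have hdm0 : 0 ≤ dm := hD0.trans hDdm
    calc dm ≤ (1 + 1 / K) * (1 - 1 / (2 * K)) * dm := by nlinarith
      _ = (1 + 1 / K) * ((1 - 1 / (2 * K)) * dm) := by ring
      _ ≤ (1 + 1 / K) * D := by
        apply mul_le_mul_of_nonneg_left h3
        have : 0 < 1 / K := by positivity
        linarith
  refine ⟨D, hdpD, fun τ hτ => ?_⟩
  have hτ1 := (abs_le.1 hτ).1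
  have hτ2 := (abs_le.1 hτ).2
  rcases lt_trichotomy τ 0 with h | h | h
  · -- negative
    have e : s - -τ = s + τ := by ring
    have h3 := hD2 (-τ) (by linarith) (by linarith)
    rw [e, le_div_iff₀ (by linarith)] at h3
    refine ⟨?_, by linarith⟩
    have h4 : (Y s - Y (s + τ)) / (-τ) ≤ dm := by
      have h5 := slopes hY (a := s - K - 1) (b := s - K) (c := s + τ) (d := s) (by linarith)
        (by linarith) (by linarith) (by linarith)
      have e1 : s - (s + τ) = -τ := by ring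
      have e2 : s - K - (s - K - 1) = 1 := by ring
      rw [e1, e2, div_one] at h5
      exact h5
    rw [div_le_iff₀ (by linarith)] at h4
    have h5 : dm * -τ ≤ (1 + 1 / K) * D * -τ := mul_le_mul_of_nonneg_right h2 (by linarith)
    have h6 : 1 / K * D * -τ ≤ D := by
      have h7 : 1 / K * -τ ≤ 1 := by
        rw [one_div, inv_mul_le_iff₀ hK0]
        linarith
      calc 1 / K * D * -τ = (1 / K * -τ) * D := by ring
        _ ≤ 1 * D := mul_le_mul_of_nonneg_right h7 hD0
        _ = D := one_mul D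
    nlinarith
  · subst h
    simp only [add_zero, mul_zero]
    constructor <;> nlinarith
  · have h3 := hD1 τ h
    rw [div_le_iff₀ h] at h3
    refine ⟨?_, by linarith⟩
    have h4 : dp ≤ (Y (s + τ) - Y s) / τ := by
      have h5 := slopes hY (a := s) (b := s + τ) (c := s + K) (d := s + K + 1) (by linarith)
        (by linarith) (by linarith) (by linarith)
      have e1 : s + K + 1 - (s + K) = 1 := by ring
      have e2 : s + τ - s = τ := by ring
      rw [e1, e2, div_one] at h5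
      exact h5
    rw [le_div_iff₀ h] at h4
    have h5 : (1 - 1 / K) * D * τ ≤ dp * τ := mul_le_mul_of_nonneg_right h1 h.le
    have h6 : 1 / K * D * τ ≤ D := by
      have h7 : 1 / K * τ ≤ 1 := by
        rw [one_div, inv_mul_le_iff₀ hK0]
        linarith
      calc 1 / K * D * τ = (1 / K * τ) * D := by ring
        _ ≤ 1 * D := mul_le_mul_of_nonneg_right h7 hD0
        _ = D := one_mul D
    nlinarith

/-- the unit slopes are antitone -/
theorem dl_anti {Y : ℝ → ℝ} {s₀ : ℝ} (hY : ConcaveOn ℝ (Ici s₀) Y) {a b : ℝ} (ha : s₀ ≤ a - 1)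
    (hab : a ≤ b) : Y b - Y (b - 1) ≤ Y a - Y (a - 1) := by
  set l : ℝ := 1 / (b - a + 1) with hl
  have hp : 0 < b - a + 1 := by linarith
  have hl0 : 0 ≤ l := by positivity
  have hl1 : l ≤ 1 := by rw [hl, div_le_one hp]; linarith
  have ma : a - 1 ∈ Ici s₀ := ha
  have mb : b ∈ Ici s₀ := show s₀ ≤ b by linarith
  have h1 := hY.2 ma mb (sub_nonneg.2 hl1) hl0 (by ring)
  have h2 := hY.2 ma mb hl0 (sub_nonneg.2 hl1) (by ring)
  simp only [smul_eq_mul] at h1 h2
  have e1 : (1 - l) * (a - 1) + l * b = a := by rw [hl]; field_simp; ring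
  have e2 : l * (a - 1) + (1 - l) * b = b - 1 := by rw [hl]; field_simp; ring
  rw [e1] at h1
  rw [e2] at h2
  linarith

/-- iteration of `δ (x + T) ≤ m δ x` -/
theorem iter {δ : ℝ → ℝ} {x₀ T m X : ℝ} (hm : 0 ≤ m) (hT : 0 ≤ T) (h0 : 0 ≤ δ x₀)
    (h : ∀ x, x₀ ≤ x → x ≤ X → δ (x + T) ≤ m * δ x) (n : ℕ) (hn : x₀ + n * T ≤ X + T) :
    δ (x₀ + n * T) ≤ m ^ n * δ x₀ := by
  induction n with
  | zero => simp
  | succ n ih =>
    push_cast at hn ⊢
    have h1 : x₀ + n * T ≤ X := by nlinarith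
    have h2 := ih (by linarith)
    have h3 := h (x₀ + n * T) (by have : 0 ≤ (n : ℝ) * T := by positivity
                                  linarith) h1
    have e : x₀ + (n + 1) * T = x₀ + n * T + T := by ring
    rw [e]
    calc δ (x₀ + n * T + T) ≤ m * δ (x₀ + n * T) := h3
      _ ≤ m * (m ^ n * δ x₀) := mul_le_mul_of_nonneg_left h2 hm
      _ = m ^ (n + 1) * δ x₀ := by ring

/-- `Y (2 X) ≤ Y X + 1 / X` for large `X` contradicts `Y → ∞` -/
theorem not_small {Y : ℝ → ℝ} (ht : Tendsto Y atTop atTop) {X₁ : ℝ} (h1 : 1 ≤ X₁)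
    (h : ∀ X, X₁ ≤ X → Y (2 * X) ≤ Y X + 1 / X) : False := by
  have key : ∀ n : ℕ, Y (2 ^ n * X₁) ≤ Y X₁ + 2 - 2 / 2 ^ n := by
    intro n
    induction n with
    | zero => simp
    | succ n ih =>
      have p : (1 : ℝ) ≤ 2 ^ n := one_le_pow₀ (by norm_num)
      have h2 := h (2 ^ n * X₁) (by nlinarith)
      have e : (2 : ℝ) ^ (n + 1) * X₁ = 2 * (2 ^ n * X₁) := by ring
      rw [e]
      have h3 : 1 / (2 ^ n * X₁) ≤ 1 / 2 ^ n :=
        div_le_div_of_nonneg_left (by norm_num) (by positivity) (by nlinarith)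
      have h4 : 2 / (2 : ℝ) ^ (n + 1) = 1 / 2 ^ n := by rw [pow_succ]; field_simp
      have h5 : 2 / (2 : ℝ) ^ n = 2 * (1 / 2 ^ n) := by ring
      rw [h4]
      linarith
  have h2 : Tendsto (fun n : ℕ => (2 : ℝ) ^ n * X₁) atTop atTop :=
    (tendsto_pow_atTop_atTop_of_one_lt (by norm_num)).atTop_mul_const (by linarith)
  obtain ⟨n, hn⟩ := ((ht.comp h2).eventually_gt_atTop (Y X₁ + 2)).exists
  have h3 := key n
  have h4 : 0 < 2 / (2 : ℝ) ^ n := by positivity
  simp only [Function.comp] at hn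
  linarith

/-- **Row Sel** -/
theorem rowSel : RowSel := by
  intro Y s₀ hY hm ht S
  by_contra hcon
  push Not at hcon
  set δ : ℝ → ℝ := fun x => Y x - Y (x - 1) with hδ
  have δ0 : ∀ x, s₀ + 1 ≤ x → 0 ≤ δ x := fun x hx => sub_nonneg.2
    (hm (show s₀ ≤ x - 1 by linarith) (show s₀ ≤ x by linarith) (by linarith))
  have δa : ∀ a b, s₀ + 1 ≤ a → a ≤ b → δ b ≤ δ a := fun a b ha hab =>
    dl_anti hY (by linarith) hab
  -- the alternative at every `s`
  have alt : ∀ s, S ≤ s → 3 ≤ s → s₀ ≤ s - Real.log s ^ 3 - 1 → 1 / (4 * s ^ 2) ≤ δ (s + Real.log s ^ 3 + 1) →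
      δ (s + Real.log s ^ 3 + 1) < (1 - 1 / (2 * Real.log s ^ 3)) * δ (s - Real.log s ^ 3) := by
    intro s h1 h2 h3 h4
    by_contra h5
    push Not at h5
    set K := Real.log s ^ 3 with hK
    have hl : 1 ≤ Real.log s := by
      rw [Real.le_log_iff_exp_le (by linarith)]
      have := Real.exp_one_lt_d9
      linarith
    have hK1 : 1 ≤ K := one_le_pow₀ hl
    have e1 : δ (s + K + 1) = Y (s + K + 1) - Y (s + K) := by
      simp only [hδ]; congr 2; ring
    have e2 : δ (s - K) = Y (s - K) - Y (s - K - 1) := rfl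
    rw [e1, e2] at h5
    obtain ⟨D, hD1, hD2⟩ := lin hY hm hK1 h3 h5
    rw [← e1] at hD1
    obtain ⟨τ, hτ1, hτ2⟩ := hcon s D h1 (by linarith) (h4.trans hD1) (by linarith)
    have h6 := hD2 τ hτ1
    exact absurd (hτ2 h6.1) (not_lt.2 h6.2)
  -- large `X`
  set s₁ := max (s₀ + 1) 1 with hs₁
  set δ₁ := δ s₁ with hδ₁
  have hlog : ∀ n : ℕ, ∀ c : ℝ, 0 < c → ∀ᶠ X : ℝ in atTop, Real.log X ^ n ≤ c * X := by
    intro n c hc
    have h1 := (Real.isLittleO_pow_log_id_atTop (n := n)).bound hc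
    filter_upwards [h1, eventually_ge_atTop 1] with X h2 h3
    rw [Real.norm_of_nonneg (pow_nonneg (Real.log_nonneg h3) n), id, Real.norm_of_nonneg (by linarith)]
      at h2
    exact h2
  have big : ∀ᶠ X : ℝ in atTop, δ X < 1 / X ^ 2 := by
    filter_upwards [eventually_ge_atTop (6 : ℝ), eventually_ge_atTop (2 * S),
      eventually_ge_atTop (2 * s₁), hlog 3 (1 / 16) (by norm_num), hlog 7 (1 / 48) (by norm_num),
      eventually_ge_atTop (8 * (|s₀| + 1)), eventually_gt_atTop (2 * (|δ₁| + 1))] with X h6 hS hs hl3 hl7 ha hd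
    by_contra hge
    push Not at hge
    have hX0 : 0 < X := by linarith
    set L := Real.log X with hL
    have hL1 : 1 ≤ L := by
      rw [hL, Real.le_log_iff_exp_le (by linarith)]
      have := Real.exp_one_lt_d9
      linarith
    set K := L ^ 3 with hK
    have hK1 : 1 ≤ K := one_le_pow₀ hL1
    have hKX : K ≤ X / 16 := by linarith
    set T := 2 * K + 1 with hT
    have hs1 : s₀ + 1 ≤ s₁ := le_max_left _ _
    have hab := neg_abs_le s₀
    have hab' := le_abs_self s₀
    -- one step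
    have hstep : ∀ x, X / 2 ≤ x → x ≤ X - T → δ (x + T) ≤ (1 - 1 / (2 * K)) * δ x := by
      intro x hx1 hx2
      set s := x + K with hsd
      have hsX : s ≤ X := by linarith
      have hs3 : 3 ≤ s := by linarith
      set k := Real.log s ^ 3 with hk
      have hls : 1 ≤ Real.log s := by
        rw [Real.le_log_iff_exp_le (by linarith)]
        have := Real.exp_one_lt_d9
        linarith
      have hk1 : 1 ≤ k := one_le_pow₀ hls
      have hkK : k ≤ K := pow_le_pow_left₀ (by linarith) (Real.log_le_log (by linarith) hsX) 3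
      have hb1 : δ X ≤ δ (s + k + 1) := δa _ _ (by linarith) (by linarith)
      have hb2 : 1 / (4 * s ^ 2) ≤ 1 / X ^ 2 :=
        div_le_div_of_nonneg_left (by norm_num) (by positivity) (by nlinarith)
      have h7 := alt s (by linarith) hs3 (by linarith) (hb2.trans (hge.trans hb1))
      have h8 : δ (x + T) ≤ δ (s + k + 1) := δa _ _ (by linarith) (by linarith)
      have h9 : δ (s - k) ≤ δ x := δa _ _ (by linarith) (by linarith)
      have h10 : 0 ≤ δ x := δ0 _ (by linarith)
      have h11 : 1 / (2 * K) ≤ 1 / (2 * k) :=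
        div_le_div_of_nonneg_left (by norm_num) (by positivity) (by linarith)
      have h12 : 1 / (2 * k) ≤ 1 / 2 :=
        div_le_div_of_nonneg_left (by norm_num) (by norm_num) (by linarith)
      calc δ (x + T) ≤ δ (s + k + 1) := h8
        _ ≤ (1 - 1 / (2 * k)) * δ (s - k) := h7.le
        _ ≤ (1 - 1 / (2 * k)) * δ x := mul_le_mul_of_nonneg_left h9 (by linarith)
        _ ≤ (1 - 1 / (2 * K)) * δ x := mul_le_mul_of_nonneg_right (by linarith) h10
    -- iterate
    have hT0 : 0 < T := by linarith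
    set n : ℕ := ⌊X / (2 * T)⌋₊ with hn
    have hn1 : (n : ℝ) ≤ X / (2 * T) := Nat.floor_le (by positivity)
    have hn2 : X / (2 * T) < n + 1 := Nat.lt_floor_add_one _
    have hnT : (n : ℝ) * T ≤ X / 2 := by
      have h7 := mul_le_mul_of_nonneg_right hn1 hT0.le
      have e : X / (2 * T) * T = X / 2 := by field_simp
      rwa [e] at h7
    have hm0 : 0 ≤ 1 - 1 / (2 * K) := by
      have : 1 / (2 * K) ≤ 1 / 2 :=
        div_le_div_of_nonneg_left (by norm_num) (by norm_num) (by linarith)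
      linarith
    have hit := iter (δ := δ) (x₀ := X / 2) (T := T) (m := 1 - 1 / (2 * K)) (X := X - T) hm0 hT0.le
      (δ0 _ (by linarith)) hstep n (by linarith)
    have h13 : δ X ≤ δ (X / 2 + n * T) := δa _ _
      (by have : 0 ≤ (n : ℝ) * T := by positivity
          linarith) (by linarith)
    have h14 : δ (X / 2) ≤ δ₁ := δa _ _ hs1 (by linarith)
    have hδ₁0 : 0 ≤ δ₁ := δ0 _ hs1
    have h15 : (1 - 1 / (2 * K)) ^ n ≤ Real.exp (-(4 * L) + 1 / 2) := by
      have h16 : 1 - 1 / (2 * K) ≤ Real.exp (-(1 / (2 * K))) := by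
        have := Real.add_one_le_exp (-(1 / (2 * K)))
        linarith
      calc (1 - 1 / (2 * K)) ^ n ≤ Real.exp (-(1 / (2 * K))) ^ n := pow_le_pow_left₀ hm0 h16 n
        _ = Real.exp (-(n / (2 * K))) := by
          rw [← Real.exp_nat_mul]
          congr 1
          ring
        _ ≤ Real.exp (-(4 * L) + 1 / 2) := by
          apply Real.exp_le_exp.2
          have h17 : X / (6 * K) ≤ X / (2 * T) :=
            div_le_div_of_nonneg_left hX0.le (by positivity) (by linarith)
          have h18 : X / (6 * K) - 1 ≤ n := by linarith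
          have h19 : (X / (6 * K) - 1) / (2 * K) ≤ n / (2 * K) :=
            div_le_div_of_nonneg_right h18 (by positivity)
          have h20 : (X / (6 * K) - 1) / (2 * K) = X / (12 * K ^ 2) - 1 / (2 * K) := by
            field_simp; ring
          have h21 : 4 * L ≤ X / (12 * K ^ 2) := by
            rw [le_div_iff₀ (by positivity)]
            have e : 4 * L * (12 * K ^ 2) = 48 * L ^ 7 := by rw [hK]; ring
            rw [e]
            linarith
          have h22 : 1 / (2 * K) ≤ 1 / 2 :=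
            div_le_div_of_nonneg_left (by norm_num) (by norm_num) (by linarith)
          linarith
    have h23 : δ X ≤ Real.exp (-(4 * L) + 1 / 2) * δ₁ := by
      calc δ X ≤ (1 - 1 / (2 * K)) ^ n * δ (X / 2) := h13.trans hit
        _ ≤ (1 - 1 / (2 * K)) ^ n * δ₁ := mul_le_mul_of_nonneg_left h14 (pow_nonneg hm0 n)
        _ ≤ _ := mul_le_mul_of_nonneg_right h15 hδ₁0
    have h24 : Real.exp (-(4 * L) + 1 / 2) ≤ 2 / X ^ 4 := by
      rw [Real.exp_add, show -(4 * L) = -((4 : ℕ) * L) by push_cast; ring, Real.exp_neg,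
        Real.exp_nat_mul, hL, Real.exp_log hX0]
      have h25 : Real.exp (1 / 2) ≤ 2 := by
        have h26 : Real.exp (1 / 2) ^ 2 = Real.exp 1 := by
          rw [← Real.exp_nat_mul]; congr 1; norm_num
        have h27 := Real.exp_one_lt_d9
        have h28 := Real.exp_pos (1 / 2)
        nlinarith
      rw [mul_comm, ← div_eq_mul_inv]
      exact div_le_div_of_nonneg_right h25 (by positivity)
    have h29 : δ₁ ≤ |δ₁| := le_abs_self _
    have h30 : δ X * X ^ 4 ≤ 2 * δ₁ := by
      have h31 := (h23.trans (mul_le_mul_of_nonneg_right h24 hδ₁0))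
      have h32 := mul_le_mul_of_nonneg_right h31 (by positivity : 0 ≤ X ^ 4)
      have e : 2 / X ^ 4 * δ₁ * X ^ 4 = 2 * δ₁ := by field_simp
      rwa [e] at h32
    have h33 : X ^ 2 ≤ δ X * X ^ 4 := by
      have h34 := mul_le_mul_of_nonneg_right hge (by positivity : 0 ≤ X ^ 4)
      have e : 1 / X ^ 2 * X ^ 4 = X ^ 2 := by field_simp
      rwa [e] at h34
    nlinarith
  obtain ⟨X₀, hX₀⟩ := eventually_atTop.1 big
  refine not_small ht (X₁ := max (max X₀ 1) (s₀ + 1)) ((le_max_right _ _).trans (le_max_left _ _))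
    fun X hX => ?_
  have h1 : X₀ ≤ X := (le_max_left _ _).trans ((le_max_left _ _).trans hX)
  have h2 : 1 ≤ X := (le_max_right _ _).trans ((le_max_left _ _).trans hX)
  have h3 : s₀ + 1 ≤ X := (le_max_right _ _).trans hX
  have h4 := hX₀ X h1
  have h5 := slopes hY (a := X - 1) (b := X) (c := X) (d := 2 * X) (by linarith) (by linarith)
    le_rfl (by linarith)
  have e1 : X - (X - 1) = 1 := by ring
  have e2 : 2 * X - X = X := by ring
  rw [e1, e2, div_one, div_le_iff₀ (by linarith)] at h5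
  have h6 : (Y X - Y (X - 1)) * X ≤ 1 / X ^ 2 * X := mul_le_mul_of_nonneg_right h4.le (by linarith)
  have e3 : 1 / X ^ 2 * X = 1 / X := by
    have : X ≠ 0 := by linarith
    field_simp
  rw [e3] at h6
  linarith

end Vale.Agent.P097.CD.Sel
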