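import Vale.Agent.P097.H531.CD.Basic2
import Vale.Agent.P097.H531.CD.Sel

/-! # P097 / case [d]: the height function -/

set_option linter.all false

open Complex Metric Filter Topology Set
open scoped ComplexConjugate

namespace Vale.Agent.P097.CD

open Vale.Agent.P097 Vale.Agent.P097.TA Vale.Agent.P097.H202 Vale.Agent.P097.SC
open Vale.Agent.P097.H456.Fct

/-- heights reached at radius `exp (-s)` (and a little more) -/
def HS (α p : ℂ → ℂ → ℂ) (s : ℝ) : Set ℝ := {y | 0 < y ∧ ∃ ρ > Real.exp (-s), Ext α p y ρ}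

/-- the height function -/
noncomputable def HY (α p : ℂ → ℂ → ℂ) (s : ℝ) : ℝ := sSup (HS α p s)

theorem HS_mono {α p : ℂ → ℂ → ℂ} {s s' : ℝ} (h : s ≤ s') : HS α p s ⊆ HS α p s' := by
  rintro y ⟨hy, ρ, hρ, he⟩
  refine ⟨hy, ρ, lt_of_le_of_lt (Real.exp_le_exp.2 (by linarith)) hρ, he⟩

section
variable {κ Λ : ℝ} {H Φ : ℂ → ℂ} {r₀ e₀ : ℝ} {α p : ℂ → ℂ → ℂ} {J F q : ℂ → ℂ}

theorem HS_bdd (hne : ∀ ρ > 0, ∃ y > 0, ¬ Ext α p y ρ) (s : ℝ) : BddAbove (HS α p s) := by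
  obtain ⟨y₁, hy₁, h1⟩ := hne (Real.exp (-s)) (Real.exp_pos _)
  refine ⟨y₁, ?_⟩
  rintro y ⟨hy, ρ, hρ, he⟩
  by_contra hc
  push Not at hc
  exact h1 (he.mono hy₁ (Real.exp_pos _) hc.le hρ.le)

theorem HS_conv (E : En κ Λ H Φ r₀ e₀ α p J F q) (hY1 : RowY1) {s₁ s₂ a b : ℝ} (ha : 0 ≤ a)
    (hb : 0 ≤ b) (hab : a + b = 1) {y₁ y₂ y : ℝ} (h1 : y₁ ∈ HS α p s₁) (h2 : y₂ ∈ HS α p s₂)
    (hy : 0 < y) (hyy : y < a * y₁ + b * y₂) : y ∈ HS α p (a * s₁ + b * s₂) := by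
  obtain ⟨hy₁, ρ₁, hρ₁, he₁⟩ := h1
  obtain ⟨hy₂, ρ₂, hρ₂, he₂⟩ := h2
  have l1 : -s₁ < Real.log ρ₁ := by
    rw [Real.lt_log_iff_exp_lt ((Real.exp_pos _).trans hρ₁)]; exact hρ₁
  have l2 : -s₂ < Real.log ρ₂ := by
    rw [Real.lt_log_iff_exp_lt ((Real.exp_pos _).trans hρ₂)]; exact hρ₂
  have l3 : -(a * s₁ + b * s₂) < a * Real.log ρ₁ + b * Real.log ρ₂ := by
    rcases ha.eq_or_lt with h | h
    · have hb1 : b = 1 := by linarith
      subst h; subst hb1; linarith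
    · nlinarith [mul_lt_mul_of_pos_left l1 h, mul_le_mul_of_nonneg_left l2.le hb]
  obtain ⟨x, hx1, hx2⟩ := exists_between l3
  have ha' : 1 - b = a := by linarith
  refine ⟨hy, Real.exp x, Real.exp_lt_exp.2 hx1, hY1 E he₁ he₂ hb (by linarith) hy
    (by rw [ha']; exact hyy) (Real.exp_pos _) ?_⟩
  rw [Real.log_exp, ha']
  exact hx2

/-- properties of the height function -/
structure HP (α p : ℂ → ℂ → ℂ) (s₀ : ℝ) : Prop where
  conc : ConcaveOn ℝ (Ici s₀) (HY α p)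
  mono : MonotoneOn (HY α p) (Ici s₀)
  top : Tendsto (HY α p) atTop atTop
  one : ∀ s, s₀ ≤ s → 1 ≤ HY α p s
  lt : ∀ s, s₀ ≤ s → ∀ y, 0 < y → y < HY α p s → Ext α p y (Real.exp (-s))
  le : ∀ s y ρ, 0 < y → Real.exp (-s) < ρ → Ext α p y ρ → y ≤ HY α p s

theorem heights (E : En κ Λ H Φ r₀ e₀ α p J F q) (hY0 : RowY0) (hY1 : RowY1)
    (hne : ∀ ρ > 0, ∃ y > 0, ¬ Ext α p y ρ) : ∃ s₀, HP α p s₀ := by
  obtain ⟨ρ₀, hρ₀, he₀⟩ := hY0 E 1 one_pos
  have hle : ∀ s y ρ, 0 < y → Real.exp (-s) < ρ → Ext α p y ρ → y ≤ HY α p s :=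
    fun s y ρ hy hρ he => le_csSup (HS_bdd hne s) ⟨hy, ρ, hρ, he⟩
  have hone' : ∀ s, 1 - Real.log ρ₀ ≤ s → (1 : ℝ) ∈ HS α p s := by
    intro s hs
    refine ⟨one_pos, ρ₀, ?_, he₀⟩
    rw [gt_iff_lt, ← Real.lt_log_iff_exp_lt hρ₀]; linarith
  have hnon : ∀ s, 1 - Real.log ρ₀ ≤ s → (HS α p s).Nonempty := fun s hs => ⟨1, hone' s hs⟩
  refine ⟨1 - Real.log ρ₀, ?_, ?_, ?_, ?_, ?_, hle⟩
  · refine ⟨convex_Ici _, ?_⟩
    intro s₁ hs₁ s₂ hs₂ a b ha hb hab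
    simp only [smul_eq_mul]
    have hs : 1 - Real.log ρ₀ ≤ a * s₁ + b * s₂ := by
      have h1 := mul_le_mul_of_nonneg_left (show 1 - Real.log ρ₀ ≤ s₁ from hs₁) ha
      have h2 := mul_le_mul_of_nonneg_left (show 1 - Real.log ρ₀ ≤ s₂ from hs₂) hb
      have h3 : a * (1 - Real.log ρ₀) + b * (1 - Real.log ρ₀) = 1 - Real.log ρ₀ := by
        rw [← add_mul, hab, one_mul]
      linarith
    -- points first
    have key : ∀ y₁ ∈ HS α p s₁, ∀ y₂ ∈ HS α p s₂, a * y₁ + b * y₂ ≤ HY α p (a * s₁ + b * s₂) := by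
      intro y₁ h1 y₂ h2
      have hpos : 0 < a * y₁ + b * y₂ := by
        rcases ha.eq_or_lt with h | h
        · have hb1 : b = 1 := by linarith
          subst h; subst hb1; have := h2.1; linarith
        · have := mul_pos h h1.1
          have := mul_nonneg hb h2.1.le
          linarith
      apply le_of_forall_lt
      intro y' hy'
      obtain ⟨y, hy1, hy2⟩ := exists_between (max_lt hy' hpos)
      have hy3 : y' < y := (le_max_left _ _).trans_lt hy1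
      have hy4 : 0 < y := (le_max_right _ _).trans_lt hy1
      exact lt_of_lt_of_le hy3 (le_csSup (HS_bdd hne _) (HS_conv E hY1 ha hb hab h1 h2 hy4 hy2))
    have h1 : ∀ y₂ ∈ HS α p s₂, a * HY α p s₁ + b * y₂ ≤ HY α p (a * s₁ + b * s₂) := by
      intro y₂ h2
      rcases ha.eq_or_lt with h | h
      · obtain ⟨y₁, h3⟩ := hnon s₁ hs₁
        have := key y₁ h3 y₂ h2
        subst h
        simpa using this
      · have h3 : HY α p s₁ ≤ (HY α p (a * s₁ + b * s₂) - b * y₂) / a := by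
          apply csSup_le (hnon s₁ hs₁)
          intro y₁ h3
          rw [le_div_iff₀ h]
          have := key y₁ h3 y₂ h2
          linarith
        rw [le_div_iff₀ h] at h3
        linarith
    rcases hb.eq_or_lt with h | h
    · obtain ⟨y₂, h3⟩ := hnon s₂ hs₂
      have := h1 y₂ h3
      subst h
      simpa using this
    · have h3 : HY α p s₂ ≤ (HY α p (a * s₁ + b * s₂) - a * HY α p s₁) / b := by
        apply csSup_le (hnon s₂ hs₂)
        intro y₂ h3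
        rw [le_div_iff₀ h]
        have := h1 y₂ h3
        linarith
      rw [le_div_iff₀ h] at h3
      linarith
  · intro s₁ hs₁ s₂ hs₂ h
    exact csSup_le_csSup (HS_bdd hne s₂) (hnon s₁ hs₁) (HS_mono h)
  · rw [Filter.tendsto_atTop]
    intro M
    obtain ⟨ρ, hρ, he⟩ := hY0 E (max M 1) (lt_of_lt_of_le one_pos (le_max_right _ _))
    filter_upwards [eventually_gt_atTop (-Real.log ρ)] with s hs
    have h1 : Real.exp (-s) < ρ := by
      rw [← Real.lt_log_iff_exp_lt hρ]; linarith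
    exact (le_max_left M 1).trans (hle s _ ρ (lt_of_lt_of_le one_pos (le_max_right _ _)) h1 he)
  · intro s hs
    exact le_csSup (HS_bdd hne s) (hone' s hs)
  · intro s hs y hy hys
    obtain ⟨y', ⟨hy', ρ, hρ, he⟩, h2⟩ := exists_lt_of_lt_csSup (hnon s hs) hys
    exact he.mono hy (Real.exp_pos _) h2.le hρ.le

/-- linear bound -/
theorem HP.lin {s₀ : ℝ} (P : HP α p s₀) : ∃ c : ℝ, 2 ≤ c ∧ ∀ᶠ s : ℝ in atTop, HY α p s ≤ c / 2 * s := by
  set m := HY α p (s₀ + 1) - HY α p s₀ with hm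
  have hm0 : 0 ≤ m := sub_nonneg.2 (P.mono (show s₀ ≤ s₀ from le_rfl) (show s₀ ≤ s₀ + 1 by linarith)
    (by linarith))
  refine ⟨2 * (m + 1), by linarith, ?_⟩
  filter_upwards [eventually_gt_atTop (s₀ + 1), eventually_ge_atTop (HY α p (s₀ + 1) - m * (s₀ + 1))]
    with s h1 h2
  have h3 := Sel.slopes P.conc (a := s₀) (b := s₀ + 1) (c := s₀ + 1) (d := s) le_rfl (by linarith)
    le_rfl h1
  have e1 : s₀ + 1 - s₀ = 1 := by ring
  rw [e1, div_one, div_le_iff₀ (by linarith)] at h3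
  have e2 : 2 * (m + 1) / 2 * s = m * s + s := by ring
  rw [e2]
  have e3 : (HY α p (s₀ + 1) - HY α p s₀) * (s - (s₀ + 1)) = m * s - m * (s₀ + 1) := by
    rw [hm]; ring
  linarith

end

end Vale.Agent.P097.CD
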