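import Vale.Agent.P097.H128.Sector.Defs2

/-!
# P097 / case [d] (the curve is entire): definitions and literal rows

Note #10237 (helper531), simplified.  `F` = normal angle, `q` = support number of the tangent line,
entire functions of the affine parameter `x`; `g = F'`, `g'' = Q g`, `Q` entire.
`Tb y ρ` = tube `|Im t| < y`, `|w| < ρ`; `Ext y ρ` = the lines are analytic on the tube.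
-/

set_option linter.all false

open Complex Metric Filter Topology Set
open scoped ComplexConjugate

namespace Vale.Agent.P097.CD

open Vale.Agent.P097 Vale.Agent.P097.TA Vale.Agent.P097.H202 Vale.Agent.P097.SC
open Vale.Agent.P097.H456.Fct

/-- the data of case [d] -/
structure En (κ Λ : ℝ) (H Φ : ℂ → ℂ) (r e : ℝ) (α p : ℂ → ℂ → ℂ) (J : ℂ → ℂ) (F q : ℂ → ℂ) :
    Prop where
  ctx : Ctx κ Λ H Φ r e α p J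
  na : ¬ HAlg κ H
  dF : Differentiable ℂ F
  dq : Differentiable ℂ q
  re : ∀ x : ℝ, F x = Φ x ∧ q x = H (Φ x)

/-- basic facts on the entire curve -/
structure Bs (Λ : ℝ) (F q Q : ℂ → ℂ) : Prop where
  Λ0 : 0 < Λ
  dF : Differentiable ℂ F
  dq : Differentiable ℂ q
  dQ : Differentiable ℂ Q
  wr : ∀ z, Wr F q z = (Λ : ℂ) ^ 3
  Fp : ∀ z, F (z + 1) = F z + 2 * Real.pi
  qp : ∀ z, q (z + 1) = q z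
  Qp : ∀ z, Q (z + 1) = Q z
  Fc : ∀ z, F (conj z) = conj (F z)
  qc : ∀ z, q (conj z) = conj (q z)
  gpos : ∀ x : ℝ, 0 < (deriv F x).re
  gQ : ∀ z, deriv (deriv (deriv F)) z = Q z * deriv F z
  nc : ¬ ∃ a, ∀ z, deriv F z = a

/-- **Row B** : basic facts -/
def RowB : Prop := ∀ {κ Λ : ℝ} {H Φ : ℂ → ℂ} {r e : ℝ} {α p : ℂ → ℂ → ℂ} {J F q : ℂ → ℂ},
  En κ Λ H Φ r e α p J F q → ∃ Q, Bs Λ F q Q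

/-! ### tubes -/

/-- tube -/
def Tb (y ρ : ℝ) : Set (ℂ × ℂ) := {u | |u.1.im| < y ∧ ‖u.2‖ < ρ}

/-- the lines extend to the tube -/
structure Tu (α p : ℂ → ℂ → ℂ) (y ρ : ℝ) (A P : ℂ × ℂ → ℂ) : Prop where
  y0 : 0 < y
  ρ0 : 0 < ρ
  aA : AnalyticOnNhd ℂ A (Tb y ρ)
  aP : AnalyticOnNhd ℂ P (Tb y ρ)
  eq : ∀ t : ℝ, ∀ᶠ u in 𝓝 ((t : ℂ), (0 : ℂ)), A u = α u.1 u.2 ∧ P u = p u.1 u.2

def Ext (α p : ℂ → ℂ → ℂ) (y ρ : ℝ) : Prop := ∃ A P, Tu α p y ρ A P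

/-- **Row Y0** : every height is reached for small `w` (from `SC.secE`) -/
def RowY0 : Prop := ∀ {κ Λ : ℝ} {H Φ : ℂ → ℂ} {r e : ℝ} {α p : ℂ → ℂ → ℂ} {J F q : ℂ → ℂ},
  En κ Λ H Φ r e α p J F q → ∀ y > 0, ∃ ρ > 0, Ext α p y ρ

/-- **Row Y1** : logarithmic convexity (Reinhardt domains in `(exp (2 π i t), w)`) -/
def RowY1 : Prop := ∀ {κ Λ : ℝ} {H Φ : ℂ → ℂ} {r e : ℝ} {α p : ℂ → ℂ → ℂ} {J F q : ℂ → ℂ},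
  En κ Λ H Φ r e α p J F q → ∀ {y₁ ρ₁ y₂ ρ₂ m y ρ : ℝ}, Ext α p y₁ ρ₁ → Ext α p y₂ ρ₂ →
  0 ≤ m → m ≤ 1 → 0 < y → y < (1 - m) * y₁ + m * y₂ → 0 < ρ →
  Real.log ρ < (1 - m) * Real.log ρ₁ + m * Real.log ρ₂ → Ext α p y ρ

/-- **Row Y2** : if all heights are reached with the same `ρ`, the table is an ellipse (`end3`) -/
def RowY2 : Prop := ∀ {h : ℝ → ℝ} {κ ρ' Λ L : ℝ} {H HH lam Φ : ℂ → ℂ} {l φ : ℝ → ℝ} {r e : ℝ}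
    {α p : ℂ → ℂ → ℂ} {J : ℂ → ℂ}, LD h κ ρ' Λ L H HH lam Φ l φ → Lines κ Λ H Φ r e α p J →
  ∀ {ρ : ℝ}, 0 < ρ → (∀ y > 0, Ext α p y ρ) →
    ∃ a b φ p q : ℝ, 0 < a ∧ 0 < b ∧ h = fun ψ => p * Real.cos ψ + q * Real.sin ψ +
      √(a ^ 2 * Real.cos (ψ - φ) ^ 2 + b ^ 2 * Real.sin (ψ - φ) ^ 2)

/-! ### positions -/

/-- **Row Lift** (one variable): lifting through the immersion `x ↦ (exp (2 i F), q exp (- i F))` -/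
def RowLift : Prop := ∀ {Λ : ℝ} {F q Q : ℂ → ℂ}, Bs Λ F q Q →
  ∀ {W : Set ℂ}, IsOpen W → Convex ℝ W → ∀ {f₁ f₂ : ℂ → ℂ}, MeromorphicOn f₁ W →
  MeromorphicOn f₂ W → ∀ {t₀ : ℂ} {θ : ℂ → ℂ}, t₀ ∈ W → AnalyticAt ℂ θ t₀ →
  (¬ ∀ᶠ t in 𝓝 t₀, θ t = θ t₀) →
  (∀ᶠ t in 𝓝 t₀, f₁ t = exp (2 * I * F (θ t)) ∧ f₂ t = q (θ t) * exp (-I * F (θ t))) →
  ∃ θ' : ℂ → ℂ, DifferentiableOn ℂ θ' W ∧ θ' =ᶠ[𝓝 t₀] θ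

/-- vertex positions `θ (t, w)` : the lines `t ± w / 2` meet at the point `θ (t, w)` -/
structure Po (F q : ℂ → ℂ) (y ρ : ℝ) (A P θ : ℂ × ℂ → ℂ) : Prop where
  an : AnalyticOnNhd ℂ θ (Tb (y - ρ) ρ)
  z : ∀ t : ℂ, |t.im| < y - ρ → θ (t, 0) = t
  per : ∀ t w : ℂ, (t, w) ∈ Tb (y - ρ) ρ → θ (t + 1, w) = θ (t, w) + 1
  ev : ∀ t w : ℂ, (t, w) ∈ Tb (y - ρ) ρ → θ (t, -w) = θ (t, w)
  sA : ∀ t w : ℂ, (t, w) ∈ Tb (y - ρ) ρ →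
    A (t + w / 2, w) + A (t - w / 2, w) = 2 * F (θ (t, w))
  sP : ∀ t w : ℂ, (t, w) ∈ Tb (y - ρ) ρ → P (t + w / 2, w) + P (t - w / 2, w) =
    2 * q (θ (t, w)) * cos ((A (t + w / 2, w) - A (t - w / 2, w)) / 2)
  dP : ∀ t w : ℂ, (t, w) ∈ Tb (y - ρ) ρ →
    deriv F (θ (t, w)) * (P (t + w / 2, w) - P (t - w / 2, w)) =
    2 * deriv q (θ (t, w)) * sin ((A (t + w / 2, w) - A (t - w / 2, w)) / 2)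
  /-- two consecutive vertices are different modulo `1` -/
  om : ∀ t w : ℂ, |t.im| < y - 2 * ρ → ‖w‖ < ρ → w ≠ 0 →
    ∀ n : ℤ, θ (t + w / 2, w) - θ (t - w / 2, w) ≠ n
  /-- no tangency -/
  tg : ∀ t w : ℂ, (t, w) ∈ Tb (y - ρ) ρ → w ≠ 0 → deriv F (θ (t, w)) ≠ 0 →
    sin ((A (t + w / 2, w) - A (t - w / 2, w)) / 2) ≠ 0

/-- bound of the positions near the real line -/
def Lo1 (ρ C₁ : ℝ) (θ : ℂ × ℂ → ℂ) : Prop :=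
  ∀ t w : ℂ, |t.im| ≤ ‖w‖ → ‖w‖ < ρ → ‖θ (t, w) - t‖ ≤ C₁ * ‖w‖

/-- **Row P** : positions on tubes.  (Slices by Row Lift, joint analyticity by `H877` `hart`, no
tangency by `br A P = J ≠ 0`: differentiate incidence; then `om` by the implicit function theorem.) -/
def RowP : Prop := ∀ {κ Λ : ℝ} {H Φ : ℂ → ℂ} {r e : ℝ} {α p : ℂ → ℂ → ℂ} {J F q Q : ℂ → ℂ},
  En κ Λ H Φ r e α p J F q → Bs Λ F q Q → ∃ e₁ > 0, ∃ C₁ ≥ 1, ∀ {y ρ : ℝ} {A P : ℂ × ℂ → ℂ},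
  Tu α p y ρ A P → ρ ≤ e₁ → 2 * ρ < y → ∃ θ, Po F q y ρ A P θ ∧ Lo1 ρ C₁ θ

/-- **Row S** (start): positions are close to `t` (Schottky for `σ = θ (t+w/2) - θ (t-w/2)`, sum
along `t - k w`, real labels by the factor `w ^ 2 - ρ₂ ^ 2`) -/
def RowS : Prop := ∃ C ≥ 1, ∀ {F q : ℂ → ℂ} {y ρ C₁ s : ℝ} {A P θ : ℂ × ℂ → ℂ},
  Po F q y ρ A P θ → Lo1 ρ C₁ θ → 0 < ρ → ρ ≤ 1 → 4 * ρ < y → 1 ≤ s → Real.log (1 / ρ) ≤ s →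
  y ≤ s → 1 ≤ C₁ → ∀ t w : ℂ, |t.im| < y - 3 * ρ → ‖w‖ ≤ ρ / (C * s) →
  ‖θ (t + w / 2, w) - θ (t - w / 2, w) - w‖ ≤ C * s * (‖w‖ / ρ) ^ 2 * ‖w‖ ∧
  ‖θ (t, w) - t‖ ≤ C * s ^ 2 * (‖w‖ / ρ) ^ 2 + C * C₁ * ‖w‖

/-- **Row L** (Landau): for fixed vertex `x` the angle `A (T + w/2, w) - F x`, `θ (T, w) = x`, is in
`π ℤ` only for `w = 0` (`Po.tg`), its derivative at `w = 0` is `g x / 2` -/
def RowL : Prop := ∃ C ≥ 1, ∀ {F q : ℂ → ℂ} {y ρ C₁ s : ℝ} {A P θ : ℂ × ℂ → ℂ},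
  Differentiable ℂ F → AnalyticOnNhd ℂ A (Tb y ρ) → (∀ t : ℂ, |t.im| < y → A (t, 0) = F t) →
  Po F q y ρ A P θ → Lo1 ρ C₁ θ → 0 < ρ → ρ ≤ 1 → 4 * ρ < y → C ≤ s → Real.log (1 / ρ) ≤ s →
  y ≤ s → 1 ≤ C₁ → C₁ * ρ ≤ (s⁻¹) ^ 6 → ∀ x : ℂ, |x.im| < y - (s⁻¹) ^ 4 →
  ‖deriv F x‖ ≤ C * s ^ 4 / ρ

/-! ### bounds of `Q`, the place -/

/-- **Row 2a** -/
def Row2a : Prop := ∃ C ≥ 1, ∀ {g Q : ℂ → ℂ} {l A Y R : ℝ}, Differentiable ℂ g →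
  Differentiable ℂ Q → (∀ z, deriv (deriv g) z = Q z * g z) → (∀ z, g (z + 1) = g z) →
  (∀ x : ℝ, (g x).im = 0 ∧ Real.exp (-l) ≤ (g x).re) → 0 ≤ l → 0 ≤ A → 0 < R → R ≤ 1 → R < Y →
  (∀ z : ℂ, |z.im| ≤ Y → ‖g z‖ ≤ Real.exp A) →
  ∀ z : ℂ, |z.im| ≤ Y - R → ‖Q z‖ ≤ C * (A + l + 1) ^ 4 / R ^ 6

/-- **Row 2b** (the place `x₀`) -/
def Row2b : Prop := ∃ C ≥ 1, ∀ {g Q : ℂ → ℂ} {y D r K K₁ B ε : ℝ}, Differentiable ℂ g →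
  Differentiable ℂ Q → (∀ z, deriv (deriv g) z = Q z * g z) → (∀ z, g (z + 1) = g z) →
  (∀ x : ℝ, (g x).im = 0 ∧ 0 < (g x).re) → 0 < D → 0 < r → 0 < ε → ε ≤ 1 → 1 ≤ B → 1 ≤ K₁ →
  (∀ z : ℂ, |z.im - y| ≤ K * D → ‖g z‖ ≤ B / r * Real.exp ((z.im - y) / D)) →
  C * (Real.log (B / ε) + K₁ + 1) ^ 2 ≤ K →
  ∃ x₀ : ℝ, ∀ z ∈ ball ((x₀ : ℂ) + y * I) (K₁ * D), ‖g z‖ * r < ε

/-! ### climb, fill, spread, two constants -/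

/-- lower rectangle -/
def LoR (c : ℂ) (D r v K : ℝ) : Set (ℂ × ℂ) :=
  {u | |(u.1 - c).re| < K * D / 2 ∧ -(v + 2) * D < (u.1 - c).im ∧ (u.1 - c).im < -v * D ∧
    ‖u.2‖ < 10 * r}

/-- upper rectangle, labels in the double sector `|Im w| > |w| / 40` -/
def UpR (c : ℂ) (D r v : ℝ) : Set (ℂ × ℂ) :=
  {u | |(u.1 - c).re| < 50 * D ∧ -(v + 2) * D < (u.1 - c).im ∧ (u.1 - c).im < 50 * D ∧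
    ‖u.2‖ < 10 * r ∧ ‖u.2‖ / 40 < |u.2.im|}

/-- **Row C** (climb) -/
def RowC : Prop := ∃ ε₁ > 0, ∀ {Λ : ℝ} {F q Q : ℂ → ℂ}, Bs Λ F q Q →
  ∀ {c : ℂ} {D r v K : ℝ}, 0 < D → 0 < r → 1 ≤ v → 400 * (v + 60) ≤ K → K * r ≤ ε₁ * D →
  (∀ z ∈ ball c (K * D), ‖deriv F z‖ * r * K ≤ ε₁ ∧ ‖Q z‖ * r * K * D ≤ ε₁) →
  ∀ {A P θ : ℂ × ℂ → ℂ}, AnalyticOnNhd ℂ A (LoR c D r v K) → AnalyticOnNhd ℂ P (LoR c D r v K) →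
  AnalyticOnNhd ℂ θ (LoR c D r v K) →
  (∀ t w : ℂ, (t, w) ∈ LoR c D r v K → ‖θ (t, w) - t‖ ≤ D) →
  (∀ t : ℂ, (t, (0 : ℂ)) ∈ LoR c D r v K → A (t, 0) = F t) →
  (∀ t w : ℂ, (t, w) ∈ LoR c D r v K → A (t, -w) = A (t, w) ∧ P (t, -w) = P (t, w) ∧
    θ (t, -w) = θ (t, w)) →
  (∀ t w : ℂ, (t + w / 2, w) ∈ LoR c D r v K → (t - w / 2, w) ∈ LoR c D r v K →
    ‖θ (t + w / 2, w) - θ (t - w / 2, w) - w‖ ≤ ε₁ * ‖w‖ ∧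
    A (t + w / 2, w) + A (t - w / 2, w) = 2 * F (θ (t, w)) ∧
    P (t + w / 2, w) + P (t - w / 2, w) =
      2 * q (θ (t, w)) * cos ((A (t + w / 2, w) - A (t - w / 2, w)) / 2) ∧
    deriv F (θ (t, w)) * (P (t + w / 2, w) - P (t - w / 2, w)) =
      2 * deriv q (θ (t, w)) * sin ((A (t + w / 2, w) - A (t - w / 2, w)) / 2)) →
  ∃ A' P' : ℂ × ℂ → ℂ, AnalyticOnNhd ℂ A' (UpR c D r v) ∧ AnalyticOnNhd ℂ P' (UpR c D r v) ∧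
    ∀ u ∈ LoR c D r v K ∩ UpR c D r v, A' u = A u ∧ P' u = P u

/-- lower tube of the fill -/
def LoT (c : ℂ) (D r v : ℝ) : Set (ℂ × ℂ) :=
  {u | |(u.1 - c).re| < 50 * D ∧ -(v + 2) * D < (u.1 - c).im ∧ (u.1 - c).im < -(7 / 2) * D ∧
    ‖u.2‖ < 10 * r}

/-- **Row F** (fill, product Hartogs figure `t = t_c + Z exp (h₀ (1 - ζ²))`, `w = u + (u/2) ζ`,
`t_c = c - 5.4 D i`, `h₀ = 1.6`, `|Z| < 1.86 D`) -/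
def RowF : Prop := ∀ {c : ℂ} {D r v : ℝ}, 0 < D → 0 < r → 60 ≤ v → ∀ {f f' : ℂ × ℂ → ℂ},
  AnalyticOnNhd ℂ f (LoT c D r v) → AnalyticOnNhd ℂ f' (UpR c D r v) →
  (∀ u ∈ LoT c D r v ∩ UpR c D r v, f' u = f u) → ∀ {u : ℝ}, 0 < u → u ≤ 6 * r →
  ∃ ε > 0, ∃ G : ℂ × ℂ → ℂ, AnalyticOnNhd ℂ G
      ({t : ℂ | |(t - c).re| < D ∧ -7 * D < (t - c).im ∧ (t - c).im < 3 * D} ×ˢ ball (u : ℂ) ε) ∧
    ∀ t w : ℂ, |(t - c).re| < D → -7 * D < (t - c).im → (t - c).im < -(7 / 2) * D →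
      w ∈ ball (u : ℂ) ε → G (t, w) = f (t, w)

/-- **Row Sp** (spread, FCT + Row Lift): from one column to the whole line at a real label -/
def RowSp : Prop := ∀ {κ Λ : ℝ} {H Φ : ℂ → ℂ} {r e : ℝ} {α p : ℂ → ℂ → ℂ} {J F q Q : ℂ → ℂ},
  En κ Λ H Φ r e α p J F q → Bs Λ F q Q → ∃ e₁ > 0, ∀ {b₀ ρ : ℝ} {A P : ℂ × ℂ → ℂ},
  Tu α p b₀ ρ A P → ∀ {x' D a b₁ u ε : ℝ} {A₁ P₁ : ℂ × ℂ → ℂ}, 0 < u → u < D → u < ρ → u ≤ e₁ →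
  0 < ε → a < b₀ → b₀ < b₁ →
  AnalyticOnNhd ℂ A₁ ({t : ℂ | |t.re - x'| < D ∧ a < t.im ∧ t.im < b₁} ×ˢ ball (u : ℂ) ε) →
  AnalyticOnNhd ℂ P₁ ({t : ℂ | |t.re - x'| < D ∧ a < t.im ∧ t.im < b₁} ×ˢ ball (u : ℂ) ε) →
  (∀ t w : ℂ, |t.re - x'| < D → a < t.im → t.im < b₀ → w ∈ ball (u : ℂ) ε → ‖w‖ < ρ →
    A₁ (t, w) = A (t, w) ∧ P₁ (t, w) = P (t, w)) → ∀ b < b₁, ∃ ε' > 0, ∃ A₂ P₂ : ℂ × ℂ → ℂ,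
    AnalyticOnNhd ℂ A₂ ({t : ℂ | -b₀ < t.im ∧ t.im < b} ×ˢ ball (u : ℂ) ε') ∧
    AnalyticOnNhd ℂ P₂ ({t : ℂ | -b₀ < t.im ∧ t.im < b} ×ˢ ball (u : ℂ) ε') ∧
    ∀ t w : ℂ, |t.im| < b₀ → w ∈ ball (u : ℂ) ε' → ‖w‖ < ρ →
      A₂ (t, w) = A (t, w) ∧ P₂ (t, w) = P (t, w)

/-- **Row TC** (two constants on the half discs, for the Fourier coefficients:
`f_k (w) exp (i k μ Log ((R + w)/(R - w)))`) -/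
def RowTC : Prop := ∀ {a b₀ b₁ b₂ R R' : ℝ} {f : ℂ × ℂ → ℂ}, 0 < a → 0 < b₀ → b₀ ≤ b₁ → 0 < R →
  R < R' → b₂ < 59 / 100 * b₁ + 41 / 100 * b₀ →
  AnalyticOnNhd ℂ f ({t : ℂ | -a < t.im ∧ t.im < b₀} ×ˢ ball (0 : ℂ) R') →
  (∀ t w : ℂ, -a < t.im → t.im < b₀ → ‖w‖ < R' → f (t + 1, w) = f (t, w)) →
  (∀ u : ℝ, |u| ≤ R → ∃ ε > 0, ∃ G : ℂ × ℂ → ℂ,
    AnalyticOnNhd ℂ G ({t : ℂ | -a < t.im ∧ t.im < b₁} ×ˢ ball (u : ℂ) ε) ∧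
    ∀ t w : ℂ, -a < t.im → t.im < b₀ → w ∈ ball (u : ℂ) ε → ‖w‖ < R' → G (t, w) = f (t, w)) →
  ∃ G : ℂ × ℂ → ℂ, AnalyticOnNhd ℂ G ({t : ℂ | -a < t.im ∧ t.im < b₂} ×ˢ ball (0 : ℂ) (R / 3)) ∧
    ∀ t w : ℂ, -a < t.im → t.im < min b₀ b₂ → ‖w‖ < R / 3 → G (t, w) = f (t, w)

/-! ### selection of the heights (real variable) -/

/-- **Row Sel** : `Y` concave, nondecreasing, unbounded; windows of length `(log s)^3` -/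
def RowSel : Prop := ∀ {Y : ℝ → ℝ} {s₀ : ℝ}, ConcaveOn ℝ (Ici s₀) Y → MonotoneOn Y (Ici s₀) →
  Tendsto Y atTop atTop → ∀ S : ℝ, ∃ s D : ℝ, S ≤ s ∧ 1 ≤ s ∧ 1 / (4 * s ^ 2) ≤ D ∧
    s₀ ≤ s - Real.log s ^ 3 ∧
    ∀ τ : ℝ, |τ| ≤ Real.log s ^ 3 → Y s + D * (τ - 1) ≤ Y (s + τ) ∧ Y (s + τ) ≤ Y s + D * τ

end Vale.Agent.P097.CD
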