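import Vale.Agent.P097.H531.CD.Main
import Vale.Agent.P097.H128.Sector.Top3
import Vale.Agent.P097.H710.RowB
import Vale.Agent.P097.H710.RowS
import Vale.Agent.P097.H710.RowY1
import Vale.Agent.P097.H456.Edge.Lift
import Vale.Agent.P097.H456.Sp.RowSp
import Vale.Agent.P097.H324.CD.RowP
import Vale.Agent.P097.H967.RowL
import Vale.Agent.P097.H690.LD.RowC
import Vale.Agent.P097.H320.RowF
import Vale.Agent.P097.H320.RowTC

/-! # P097 / case [d]: all rows discharged (the finite chain theorem stays a parameter) -/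

set_option linter.all false

namespace Vale.Agent.P097.CD

open Vale.Agent.P097 Vale.Agent.P097.TA Vale.Agent.P097.H202 Vale.Agent.P097.SC
open Vale.Agent.P097.H456.Fct

/-- **case [d]**: if the curve is entire, the table is an ellipse -/
theorem caseD_fct (hFCT : FCT)
    {h : ℝ → ℝ} {κ ρ' Λ L : ℝ} {H HH lam Φ : ℂ → ℂ} {l φ : ℝ → ℝ} {r₀ e₀ : ℝ}
    {α p : ℂ → ℂ → ℂ} {J F q : ℂ → ℂ} (D₀ : LD h κ ρ' Λ L H HH lam Φ l φ)
    (Ln : Lines κ Λ H Φ r₀ e₀ α p J) (E : En κ Λ H Φ r₀ e₀ α p J F q) :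
    ∃ a b φ p q : ℝ, 0 < a ∧ 0 < b ∧ h = fun ψ => p * Real.cos ψ + q * Real.sin ψ +
      √(a ^ 2 * Real.cos (ψ - φ) ^ 2 + b ^ 2 * Real.sin (ψ - φ) ^ 2) :=
  caseD_of H710.rowB secE H710.rowY1 (H324.CD.rowP H456.Edge.rowLift) H710.rowS H967.RowL.rowL
    H690.LD.rowC H320.RF.rowF (H456.Sp.rowSp' hFCT) H320.TCs.rowTC D₀ Ln E

end Vale.Agent.P097.CD
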