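import Vale.Agent.P097.H531.CD.Defs
import Vale.Agent.P097.H456.Fct.F1

/-! # P097 / case [d]: basic facts on tubes, Row Y0 -/

set_option linter.all false

open Complex Metric Filter Topology Set
open scoped ComplexConjugate

namespace Vale.Agent.P097.CD

open Vale.Agent.P097 Vale.Agent.P097.TA Vale.Agent.P097.H202 Vale.Agent.P097.SC
open Vale.Agent.P097.H456.Fct

theorem isOpen_Tb (y ρ : ℝ) : IsOpen (Tb y ρ) := by
  have h1 : IsOpen {p : ℂ × ℂ | |p.1.im| < y} := isOpen_lt (by fun_prop) continuous_const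
  have h2 : IsOpen {p : ℂ × ℂ | ‖p.2‖ < ρ} := isOpen_lt (by fun_prop) continuous_const
  exact h1.inter h2

theorem Tb_eq (y ρ : ℝ) : Tb y ρ = Str y ×ˢ ball (0 : ℂ) ρ := by
  ext u
  simp [Tb, Str]

theorem convex_Tb (y ρ : ℝ) : Convex ℝ (Tb y ρ) := by
  rw [Tb_eq]
  exact (convex_Str y).prod (convex_ball _ _)

theorem Tb_mono {y y' ρ ρ' : ℝ} (hy : y ≤ y') (hρ : ρ ≤ ρ') : Tb y ρ ⊆ Tb y' ρ' :=
  fun _ h => ⟨h.1.trans_le hy, h.2.trans_le hρ⟩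

theorem zero_mem_Tb {y ρ : ℝ} (hy : 0 < y) (hρ : 0 < ρ) (t : ℝ) : ((t : ℂ), (0 : ℂ)) ∈ Tb y ρ :=
  ⟨by simpa using hy, by simpa using hρ⟩

section
variable {α p : ℂ → ℂ → ℂ} {y ρ y' ρ' : ℝ} {A P A' P' : ℂ × ℂ → ℂ}

theorem Tu.mono (h : Tu α p y ρ A P) (hy : 0 < y') (hρ : 0 < ρ') (hyy : y' ≤ y) (hρρ : ρ' ≤ ρ) :
    Tu α p y' ρ' A P where
  y0 := hy
  ρ0 := hρ
  aA := h.aA.mono (Tb_mono hyy hρρ)
  aP := h.aP.mono (Tb_mono hyy hρρ)
  eq := h.eq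

theorem Ext.mono (h : Ext α p y ρ) (hy : 0 < y') (hρ : 0 < ρ') (hyy : y' ≤ y) (hρρ : ρ' ≤ ρ) :
    Ext α p y' ρ' := by
  obtain ⟨A, P, h⟩ := h
  exact ⟨A, P, h.mono hy hρ hyy hρρ⟩

/-- identity theorem on tubes -/
theorem eqOn_Tb {f g : ℂ × ℂ → ℂ} (hy : 0 < y) (hρ : 0 < ρ) (hf : AnalyticOnNhd ℂ f (Tb y ρ))
    (hg : AnalyticOnNhd ℂ g (Tb y ρ)) (h : f =ᶠ[𝓝 (((0 : ℝ) : ℂ), (0 : ℂ))] g) :
    EqOn f g (Tb y ρ) :=
  hf.eqOn_of_preconnected_of_eventuallyEq hg (convex_Tb y ρ).isPreconnected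
    (zero_mem_Tb hy hρ 0) h

theorem Tu.agree (h : Tu α p y ρ A P) (h' : Tu α p y' ρ' A' P') :
    EqOn A A' (Tb (min y y') (min ρ ρ')) ∧ EqOn P P' (Tb (min y y') (min ρ ρ')) := by
  have hy : 0 < min y y' := lt_min h.y0 h'.y0
  have hρ : 0 < min ρ ρ' := lt_min h.ρ0 h'.ρ0
  have e1 := h.eq 0
  have e2 := h'.eq 0
  constructor
  · refine eqOn_Tb hy hρ (h.aA.mono (Tb_mono (min_le_left _ _) (min_le_left _ _)))
      (h'.aA.mono (Tb_mono (min_le_right _ _) (min_le_right _ _))) ?_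
    filter_upwards [e1, e2] with u a b
    rw [a.1, b.1]
  · refine eqOn_Tb hy hρ (h.aP.mono (Tb_mono (min_le_left _ _) (min_le_left _ _)))
      (h'.aP.mono (Tb_mono (min_le_right _ _) (min_le_right _ _))) ?_
    filter_upwards [e1, e2] with u a b
    rw [a.2, b.2]

theorem Tu.agree' (h : Tu α p y ρ A P) (h' : Tu α p y' ρ' A' P') (hy : y' ≤ y) (hρ : ρ' ≤ ρ) :
    EqOn A A' (Tb y' ρ') ∧ EqOn P P' (Tb y' ρ') := by
  have := h.agree h'
  rwa [min_eq_right hy, min_eq_right hρ] at this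

/-! ### symmetries -/

theorem an_shift {f : ℂ × ℂ → ℂ} (c : ℂ) (hf : AnalyticOnNhd ℂ f (Tb y ρ)) (hc : c.im = 0) :
    AnalyticOnNhd ℂ (fun u : ℂ × ℂ => f (u.1 + c, u.2)) (Tb y ρ) := by
  intro u hu
  have h1 : AnalyticAt ℂ f (u.1 + c, u.2) := hf _ ⟨by simpa [hc] using hu.1, hu.2⟩
  exact AnalyticAt.comp (g := f) (f := fun u : ℂ × ℂ => (u.1 + c, u.2)) h1
    ((analyticAt_fst.add analyticAt_const).prod analyticAt_snd)

theorem an_neg {f : ℂ × ℂ → ℂ} (hf : AnalyticOnNhd ℂ f (Tb y ρ)) :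
    AnalyticOnNhd ℂ (fun u : ℂ × ℂ => f (u.1, -u.2)) (Tb y ρ) := by
  intro u hu
  have h1 : AnalyticAt ℂ f (u.1, -u.2) := hf _ ⟨hu.1, by simpa using hu.2⟩
  exact AnalyticAt.comp (g := f) (f := fun u : ℂ × ℂ => (u.1, -u.2)) h1
    (analyticAt_fst.prod analyticAt_snd.neg)

variable {κ Λ : ℝ} {H Φ : ℂ → ℂ} {r e : ℝ} {J F q : ℂ → ℂ}

theorem real_near (L : Lines κ Λ H Φ r e α p J) (t : ℝ) :
    ∀ᶠ u : ℂ × ℂ in 𝓝 ((t : ℂ), (0 : ℂ)), (u.1, u.2) ∈ WW 0 r e :=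
  (isOpen_WW' 0 r e).mem_nhds (real_mem L t 0)

theorem Tu.per (h : Tu α p y ρ A P) (L : Lines κ Λ H Φ r e α p J) :
    ∀ t w : ℂ, (t, w) ∈ Tb y ρ → A (t + 1, w) = A (t, w) + 2 * Real.pi ∧ P (t + 1, w) = P (t, w) := by
  have hs : Tendsto (fun u : ℂ × ℂ => (u.1 + 1, u.2)) (𝓝 (((0 : ℝ) : ℂ), (0 : ℂ)))
      (𝓝 (((1 : ℝ) : ℂ), (0 : ℂ))) := by
    have hc : Continuous (fun u : ℂ × ℂ => (u.1 + 1, u.2)) := by fun_prop
    have h1 := hc.tendsto (((0 : ℝ) : ℂ), (0 : ℂ))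
    have e1 : ((((0 : ℝ) : ℂ), (0 : ℂ)).1 + 1, (((0 : ℝ) : ℂ), (0 : ℂ)).2) =
        (((1 : ℝ) : ℂ), (0 : ℂ)) := by simp
    simp only [e1] at h1
    exact h1
  have h1 := hs.eventually (h.eq 1)
  have h0 := h.eq 0
  have hm := real_near L 0
  have k1 := eqOn_Tb h.y0 h.ρ0 (an_shift 1 h.aA (by simp))
    (h.aA.add (analyticOnNhd_const (v := (2 * Real.pi : ℂ)))) (by
      filter_upwards [h1, h0, hm] with u a b c
      rw [a.1]
      show α (u.1 + 1) u.2 = A u + 2 * Real.pi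
      rw [b.1, L.αper _ _ c])
  have k2 := eqOn_Tb h.y0 h.ρ0 (an_shift 1 h.aP (by simp)) h.aP (by
      filter_upwards [h1, h0, hm] with u a b c
      rw [a.2, b.2]
      exact L.pper _ _ c)
  exact fun t w ht => ⟨k1 ht, k2 ht⟩

theorem Tu.ev (h : Tu α p y ρ A P) (L : Lines κ Λ H Φ r e α p J) :
    ∀ t w : ℂ, (t, w) ∈ Tb y ρ → A (t, -w) = A (t, w) ∧ P (t, -w) = P (t, w) := by
  have hs : Tendsto (fun u : ℂ × ℂ => (u.1, -u.2)) (𝓝 (((0 : ℝ) : ℂ), (0 : ℂ)))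
      (𝓝 (((0 : ℝ) : ℂ), (0 : ℂ))) := by
    have hc : Continuous (fun u : ℂ × ℂ => (u.1, -u.2)) := by fun_prop
    have h1 := hc.tendsto (((0 : ℝ) : ℂ), (0 : ℂ))
    simpa using h1
  have h1 := hs.eventually (h.eq 0)
  have h0 := h.eq 0
  have hm := real_near L 0
  have k1 := eqOn_Tb h.y0 h.ρ0 (an_neg h.aA) h.aA (by
      filter_upwards [h1, h0, hm] with u a b c
      rw [a.1, b.1]
      exact L.αev _ _ c)
  have k2 := eqOn_Tb h.y0 h.ρ0 (an_neg h.aP) h.aP (by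
      filter_upwards [h1, h0, hm] with u a b c
      rw [a.2, b.2]
      exact L.pev _ _ c)
  exact fun t w ht => ⟨k1 ht, k2 ht⟩

/-- the axis `w = 0` -/
theorem Tu.ax (h : Tu α p y ρ A P) (E : En κ Λ H Φ r e α p J F q) :
    ∀ t : ℂ, |t.im| < y → A (t, 0) = F t ∧ P (t, 0) = q t := by
  obtain ⟨hh, ρ', L', HH, lam, l, φ, T⟩ := E.ctx.ld
  have L := E.ctx.ln
  have hslice : ∀ {f : ℂ × ℂ → ℂ}, AnalyticOnNhd ℂ f (Tb y ρ) →
      AnalyticOnNhd ℂ (fun t : ℂ => f (t, 0)) (Str y) := by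
    intro f hf t ht
    have h1 : AnalyticAt ℂ f (t, 0) := hf _ ⟨ht, by simpa using h.ρ0⟩
    exact AnalyticAt.comp (g := f) (f := fun t : ℂ => (t, (0 : ℂ))) h1
      (analyticAt_id.prod analyticAt_const)
  have hconn := (convex_Str y).isPreconnected
  have h0m : ((0 : ℝ) : ℂ) ∈ Str y := by
    show |(((0 : ℝ) : ℂ)).im| < y
    simpa using h.y0
  have hx : ∀ x : ℝ, A ((x : ℂ), 0) = F x ∧ P ((x : ℂ), 0) = q x := by
    intro x
    have h1 := (h.eq x).self_of_nhds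
    have hr := L.hr
    have h2 : |(x : ℂ).im| < r := by simpa using hr
    rw [h1.1, h1.2]
    simp only
    rw [L.αzero _ h2, L.pzero _ h2, (E.re x).1, (E.re x).2]
    exact ⟨rfl, rfl⟩
  have hseq : Tendsto (fun n : ℕ => (((1 : ℝ) / (n + 1) : ℝ) : ℂ)) atTop (𝓝[≠] ((0 : ℝ) : ℂ)) := by
    refine tendsto_nhdsWithin_iff.2 ⟨?_, Eventually.of_forall fun n => ?_⟩
    · exact (continuous_ofReal.tendsto 0).comp tendsto_one_div_add_atTop_nhds_zero_nat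
    · show (((1 : ℝ) / (n + 1) : ℝ) : ℂ) ≠ ((0 : ℝ) : ℂ)
      intro hh
      have h2 := ofReal_injective hh
      have h3 : (0 : ℝ) < 1 / ((n : ℝ) + 1) := by positivity
      linarith
  have k1 : EqOn (fun t : ℂ => A (t, 0)) F (Str y) :=
    (hslice h.aA).eqOn_of_preconnected_of_frequently_eq
      (fun z _ => E.dF.analyticAt z) hconn h0m
      (hseq.frequently (Eventually.of_forall fun n => (hx _).1).frequently)
  have k2 : EqOn (fun t : ℂ => P (t, 0)) q (Str y) :=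
    (hslice h.aP).eqOn_of_preconnected_of_frequently_eq
      (fun z _ => E.dq.analyticAt z) hconn h0m
      (hseq.frequently (Eventually.of_forall fun n => (hx _).2).frequently)
  exact fun t ht => ⟨k1 ht, k2 ht⟩

/-- agreement with the original lines -/
theorem Tu.onWW (h : Tu α p y ρ A P) (L : Lines κ Λ H Φ r e α p J) :
    ∀ t w : ℂ, (t, w) ∈ Tb (min y r) (min ρ e) → A (t, w) = α t w ∧ P (t, w) = p t w := by
  have hr := L.hr
  have he := L.he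
  have hsub : Tb (min y r) (min ρ e) ⊆ WW 0 r e := fun u hu =>
    ⟨hu.2.trans_le (min_le_right _ _), by simpa using hu.1.trans_le (min_le_right _ _)⟩
  have h0 := h.eq 0
  have hyp : 0 < min y r := lt_min h.y0 hr
  have hρp : 0 < min ρ e := lt_min h.ρ0 he
  have k1 := eqOn_Tb hyp hρp (h.aA.mono (Tb_mono (min_le_left _ _) (min_le_left _ _)))
    (g := fun u : ℂ × ℂ => α u.1 u.2) (fun u hu => an_of_JD L.jα (hsub hu))
    (by filter_upwards [h0] with u a using a.1)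
  have k2 := eqOn_Tb hyp hρp (h.aP.mono (Tb_mono (min_le_left _ _) (min_le_left _ _)))
    (g := fun u : ℂ × ℂ => p u.1 u.2) (fun u hu => an_of_JD L.jp (hsub hu))
    (by filter_upwards [h0] with u a using a.2)
  exact fun t w ht => ⟨k1 ht, k2 ht⟩

end

/-! ### Row Y0 -/

theorem rowY0 (hE : SecE) : RowY0 := by
  intro κ Λ H Φ r e α p J F q E y hy
  obtain ⟨αh, ph, h1, h2, h3⟩ := hE E.ctx (a := 0) (b := y + 1) (ρ := 1 / 4) (Φb := F) (qb := q)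
    (by linarith) (by norm_num) (by norm_num) E.dF.differentiableOn E.dq.differentiableOn E.re
  obtain ⟨r₁, hr₁, a1, a2⟩ := h1 1 one_pos (by linarith)
  have hsub : Tb y r₁ ⊆ Om 0 (y + 1) (1 / 4 / 2) 1 ×ˢ ball (0 : ℂ) r₁ := by
    intro u hu
    refine ⟨Or.inl ?_, by simpa using hu.2⟩
    show |u.1.im| < y + 1 - 1
    have := hu.1
    linarith
  refine ⟨r₁, hr₁, αh, ph, hy, hr₁, a1.mono hsub, a2.mono hsub, fun t => ?_⟩
  filter_upwards [(h2 t).1, (h2 t).2] with u a b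
  exact ⟨a, b⟩

end Vale.Agent.P097.CD
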