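import Vale.Agent.P097.H531.CD.Basic
import Vale.Agent.P097.H830.Geom5

/-! # P097 / case [d]: reality on tubes, Row Y2 -/

set_option linter.all false

open Complex Metric Filter Topology Set
open scoped ComplexConjugate

namespace Vale.Agent.P097.CD

open Vale.Agent.P097 Vale.Agent.P097.TA Vale.Agent.P097.H202 Vale.Agent.P097.SC
open Vale.Agent.P097.H456.Fct

theorem an_conj {f : ℂ × ℂ → ℂ} {S : Set (ℂ × ℂ)} (hS : IsOpen S) (hf : AnalyticOnNhd ℂ f S)
    {S' : Set (ℂ × ℂ)} (hS' : IsOpen S')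
    (hsym : ∀ u ∈ S', (conj u.1, conj u.2) ∈ S) :
    AnalyticOnNhd ℂ (fun u : ℂ × ℂ => conj (f (conj u.1, conj u.2))) S' := by
  apply Hol.analyticOnNhd_of_differentiableOn hS'
  intro u hu
  have h1 : DifferentiableAt ℂ f (star u) := (hf _ (hsym u hu)).differentiableAt
  have h2 := h1.star_star
  rw [star_star] at h2
  exact h2.differentiableWithinAt

section
variable {α p : ℂ → ℂ → ℂ} {y ρ : ℝ} {A P : ℂ × ℂ → ℂ}
variable {κ Λ : ℝ} {H Φ : ℂ → ℂ} {r e : ℝ} {J F q : ℂ → ℂ}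

theorem Tb_conj {u : ℂ × ℂ} (hu : u ∈ Tb y ρ) : (conj u.1, conj u.2) ∈ Tb y ρ :=
  ⟨by rw [conj_im, abs_neg]; exact hu.1, by rw [norm_conj]; exact hu.2⟩

theorem Tu.conj (h : Tu α p y ρ A P) (L : Lines κ Λ H Φ r e α p J) :
    ∀ t w : ℂ, (t, w) ∈ Tb y ρ → A (conj t, conj w) = conj (A (t, w)) ∧
      P (conj t, conj w) = conj (P (t, w)) := by
  have hs : Tendsto (fun u : ℂ × ℂ => (conj u.1, conj u.2)) (𝓝 (((0 : ℝ) : ℂ), (0 : ℂ)))
      (𝓝 (((0 : ℝ) : ℂ), (0 : ℂ))) := by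
    have hc : Continuous (fun u : ℂ × ℂ => (conj u.1, conj u.2)) :=
      (continuous_conj.comp continuous_fst).prodMk (continuous_conj.comp continuous_snd)
    have h1 := hc.tendsto (((0 : ℝ) : ℂ), (0 : ℂ))
    simpa using h1
  have h1 := hs.eventually (h.eq 0)
  have h0 := h.eq 0
  have hm := real_near L 0
  have k1 := eqOn_Tb h.y0 h.ρ0 (an_conj (isOpen_Tb _ _) h.aA (isOpen_Tb _ _) fun u hu => Tb_conj hu)
    h.aA (by
      filter_upwards [h1, h0, hm] with u a b c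
      rw [a.1, b.1]
      have := L.αre _ _ c
      rw [this, conj_conj])
  have k2 := eqOn_Tb h.y0 h.ρ0 (an_conj (isOpen_Tb _ _) h.aP (isOpen_Tb _ _) fun u hu => Tb_conj hu)
    h.aP (by
      filter_upwards [h1, h0, hm] with u a b c
      rw [a.2, b.2]
      have := L.pre _ _ c
      rw [this, conj_conj])
  intro t w ht
  have e1 := k1 ht
  have e2 := k2 ht
  simp only at e1 e2
  rw [← e1, ← e2, conj_conj, conj_conj]
  exact ⟨rfl, rfl⟩

end

/-- gluing of a family of tubes -/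
theorem glue_tubes {α p : ℂ → ℂ → ℂ} {ρ : ℝ} (hρ : 0 < ρ) (h : ∀ y > 0, Ext α p y ρ) :
    ∃ A P : ℂ × ℂ → ℂ, (∀ y > 0, Tu α p y ρ A P) := by
  choose! A P hT using h
  set β : ℂ × ℂ → ℝ := fun u => |u.1.im| + 1 with hβ
  have hβ0 : ∀ u, 0 < β u := fun u => by have := abs_nonneg u.1.im; simp only [hβ]; linarith
  set A' : ℂ × ℂ → ℂ := fun u => A (β u) u with hA'
  set P' : ℂ × ℂ → ℂ := fun u => P (β u) u with hP'
  have key : ∀ y > 0, EqOn A' (A y) (Tb y ρ) ∧ EqOn P' (P y) (Tb y ρ) := by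
    intro y hy
    have h2 : ∀ u ∈ Tb y ρ, A' u = A y u ∧ P' u = P y u := by
      intro u hu
      have h1 := (hT (β u) (hβ0 u)).agree (hT y hy)
      rw [min_self] at h1
      have hm : u ∈ Tb (min (β u) y) ρ := ⟨lt_min (by simp only [hβ]; linarith) hu.1, hu.2⟩
      exact ⟨h1.1 hm, h1.2 hm⟩
    exact ⟨fun u hu => (h2 u hu).1, fun u hu => (h2 u hu).2⟩
  refine ⟨A', P', fun y hy => ⟨hy, hρ, ?_, ?_, fun t => ?_⟩⟩
  · exact (hT y hy).aA.congr (isOpen_Tb _ _) fun u hu => ((key y hy).1 hu).symm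
  · exact (hT y hy).aP.congr (isOpen_Tb _ _) fun u hu => ((key y hy).2 hu).symm
  · have h1 := (hT y hy).eq t
    have h2 : ∀ᶠ u : ℂ × ℂ in 𝓝 ((t : ℂ), (0 : ℂ)), u ∈ Tb y ρ :=
      (isOpen_Tb _ _).mem_nhds (zero_mem_Tb hy hρ t)
    filter_upwards [h1, h2] with u a b
    rw [(key y hy).1 b, (key y hy).2 b]
    exact a

/-- **Row Y2** -/
theorem rowY2 : RowY2 := by
  intro h κ ρ' Λ L H HH lam Φ l φ r e α p J T Ln ρ hρ hE
  obtain ⟨A, P, hT⟩ := glue_tubes hρ hE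
  have he := Ln.he
  have hr := Ln.hr
  set m := min ρ e with hm
  have hm0 : 0 < m := lt_min hρ he
  set U : Set ℂ := {w | ‖w‖ < m ∧ 0 < w.im} with hU
  have oU : IsOpen U := by
    have h1 : IsOpen {w : ℂ | ‖w‖ < m} := isOpen_lt (by fun_prop) continuous_const
    have h2 : IsOpen {w : ℂ | 0 < w.im} := isOpen_lt continuous_const (by fun_prop)
    exact h1.inter h2
  have hne : U.Nonempty := by
    refine ⟨((m / 2 : ℝ) : ℂ) * I, ?_, ?_⟩
    · rw [norm_mul, norm_I, mul_one, norm_real, Real.norm_of_nonneg (by linarith)]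
      linarith
    · simp; linarith
  have hd : ∀ {f : ℂ × ℂ → ℂ}, (∀ y > 0, AnalyticOnNhd ℂ f (Tb y ρ)) →
      JD (fun t w => f (t, w)) (univ ×ˢ U) := by
    intro f hf u hu
    have h1 : u ∈ Tb (|u.1.im| + 1) ρ := ⟨by linarith, hu.2.1.trans_le (min_le_left _ _)⟩
    have h2 := (hf (|u.1.im| + 1) (by have := abs_nonneg u.1.im; linarith)) u h1
    exact h2.differentiableAt.differentiableWithinAt
  have hww : ∀ t w : ℂ, |t.im| < r → w ∈ U → A (t, w) = α t w ∧ P (t, w) = p t w := by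
    intro t w ht hw
    refine (hT r hr).onWW Ln t w ⟨?_, ?_⟩
    · rw [min_self]; exact ht
    · exact hw.1
  exact H830.end3 T Ln oU hne (fun w hw => ⟨hw.1.trans_le (min_le_right _ _), hw.2⟩)
    (hd fun y hy => (hT y hy).aA) (hd fun y hy => (hT y hy).aP)
    (fun t w ht hw => (hww t w ht hw).1) (fun t w ht hw => (hww t w ht hw).2)

end Vale.Agent.P097.CD
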