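import Vale.Agent.P097.H531.CD.All
import Vale.Agent.P097.H6.Skel

/-! # P097 / CASE [a] + [d], literal (`H6.CaseD`) -/

set_option linter.all false

open Complex Set

namespace Vale.Agent.P097.CD

open Vale.Agent.P097 Vale.Agent.P097.TA Vale.Agent.P097.H202 Vale.Agent.P097.SC
open Vale.Agent.P097.H456.Fct

/-- **CASE [a] + [d]** : the curve is entire -/
theorem caseD_lit (hFCT : FCT) : H6.CaseD := by
  intro h η κ ρ Λ L H HH lam Φ l φ r e α p J W na Φb qb E
  exact caseD_fct hFCT W.ld W.ln (F := Φb) (q := qb)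
    ⟨⟨⟨_, _, _, _, _, _, _, W.ld⟩, W.ln⟩, na, differentiableOn_univ.1 E.dΦ,
      differentiableOn_univ.1 E.dq, E.re⟩

end Vale.Agent.P097.CD
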