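import Vale.Agent.P097.H531.CD.CaseD
import Vale.Agent.P097.H456.Fct.Main

/-! # P097 / CASE [a] + [d], unconditional -/

set_option linter.all false

namespace Vale.Agent.P097.CD

/-- **CASE [a] + [d]** (`H6.CaseD`), unconditional -/
theorem caseD : H6.CaseD := caseD_lit H456.Fct.fct

end Vale.Agent.P097.CD
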