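import Vale.Agent.P097.H531.CD.Basic2
import Vale.Agent.P097.H967.D2

/-! # P097 / case [d]: bounds of `g = F'` and `Q` in the window, the place -/

set_option linter.all false

open Complex Metric Filter Topology Set
open scoped ComplexConjugate

namespace Vale.Agent.P097.CD

open Vale.Agent.P097 Vale.Agent.P097.TA Vale.Agent.P097.H202 Vale.Agent.P097.SC
open Vale.Agent.P097.H456.Fct

section
variable {Λ : ℝ} {F q Q : ℂ → ℂ}

theorem Bs.dg (B : Bs Λ F q Q) : Differentiable ℂ (deriv F) := fun z =>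
  ((B.dF.analyticAt z).deriv).differentiableAt

theorem Bs.gp (B : Bs Λ F q Q) (z : ℂ) : deriv F (z + 1) = deriv F z := by
  have h1 : (fun z => F (z + 1)) = fun z => F z + 2 * Real.pi := funext B.Fp
  have h2 : deriv (fun z => F (z + 1)) z = deriv F (z + 1) := deriv_comp_add_const F 1 z
  rw [← h2, h1, deriv_add_const]

theorem Bs.gc (B : Bs Λ F q Q) (z : ℂ) : deriv F (conj z) = conj (deriv F z) := by
  have h1 : F = conj ∘ F ∘ conj := by
    funext z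
    simp only [Function.comp]
    rw [B.Fc, conj_conj]
  have h2 := congrFun (deriv_conj_conj (𝕜 := ℂ) (f := F)) (conj z)
  rw [← h1] at h2
  simpa [Function.comp] using h2

theorem Bs.gim (B : Bs Λ F q Q) (x : ℝ) : (deriv F x).im = 0 := by
  have h1 := B.gc x
  rw [conj_ofReal] at h1
  exact conj_eq_iff_im.1 h1.symm

theorem Bs.low (B : Bs Λ F q Q) : ∃ l : ℝ, 0 ≤ l ∧ ∀ x : ℝ, (deriv F x).im = 0 ∧
    Real.exp (-l) ≤ (deriv F x).re := by
  have hc : Continuous (fun x : ℝ => (deriv F x).re) :=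
    continuous_re.comp (B.dg.continuous.comp continuous_ofReal)
  obtain ⟨x₀, hx₀, hm⟩ := (isCompact_Icc (a := (0 : ℝ)) (b := 1)).exists_isMinOn
    ⟨0, by simp⟩ hc.continuousOn
  set m := (deriv F x₀).re with hm'
  have hm0 : 0 < m := B.gpos x₀
  have hper : Function.Periodic (fun x : ℝ => (deriv F x).re) 1 := by
    intro x
    show (deriv F ((x + 1 : ℝ) : ℂ)).re = (deriv F x).re
    rw [show ((x + 1 : ℝ) : ℂ) = (x : ℂ) + 1 by push_cast; ring, B.gp]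
  have hall : ∀ x : ℝ, m ≤ (deriv F x).re := by
    intro x
    obtain ⟨y, hy, hxy⟩ := hper.exists_mem_Ico₀ one_pos x
    rw [hxy]
    exact hm ⟨hy.1, hy.2.le⟩
  refine ⟨max 0 (-Real.log m), le_max_left _ _, fun x => ⟨B.gim x, ?_⟩⟩
  calc Real.exp (-max 0 (-Real.log m)) ≤ Real.exp (Real.log m) := by
        apply Real.exp_le_exp.2
        have := le_max_right 0 (-Real.log m)
        linarith
    _ = m := Real.exp_log hm0
    _ ≤ _ := hall x

end

/-- the window: `Ext` up to the linear profile -/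
def Win (α p : ℂ → ℂ → ℂ) (y D r K : ℝ) : Prop :=
  ∀ τ y' : ℝ, |τ| ≤ K + 4 → 0 < y' → y' < y + D * (τ - 1) → Ext α p y' (r * Real.exp (-τ))

/-- sizes in the window (part 1) -/
structure Nu (C₁ e₁ CL CS y D r K σ : ℝ) : Prop where
  D0 : 0 < D
  r0 : 0 < r
  K0 : 0 ≤ K
  C1 : 1 ≤ C₁
  σ1 : 1 ≤ σ
  h1 : C₁ * (r * Real.exp (K + 4)) ≤ (σ⁻¹) ^ 6
  h1e : r * Real.exp (K + 4) ≤ e₁
  h1a : r * Real.exp (K + 4) ≤ 1 / 16
  h1d : r * Real.exp (K + 4) ≤ D / 16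
  h2 : 1 ≤ y - D * (K + 6)
  h3 : y + D * (K + 4) ≤ σ
  h4 : Real.log (1 / r) + K + 4 ≤ σ
  h5 : CL ≤ σ
  h6 : (σ⁻¹) ^ 4 ≤ D / 8

section
variable {κ Λ : ℝ} {H Φ : ℂ → ℂ} {r₀ e₀ : ℝ} {α p : ℂ → ℂ → ℂ} {J F q Q : ℂ → ℂ}
variable {C₁ e₁ CL CS y D r K σ : ℝ}

theorem Nu.rho (N : Nu C₁ e₁ CL CS y D r K σ) {τ : ℝ} (hτ : |τ| ≤ K + 4) :
    r * Real.exp (-τ) ≤ r * Real.exp (K + 4) :=
  mul_le_mul_of_nonneg_left (Real.exp_le_exp.2 (by have := (abs_le.1 hτ).1; linarith)) N.r0.le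

/-- bound of `g` from Row L -/
theorem g_bound (E : En κ Λ H Φ r₀ e₀ α p J F q) (B : Bs Λ F q Q)
    (hP : ∀ {y ρ : ℝ} {A P : ℂ × ℂ → ℂ}, Tu α p y ρ A P → ρ ≤ e₁ → 2 * ρ < y →
      ∃ θ, Po F q y ρ A P θ ∧ Lo1 ρ C₁ θ)
    (hL : ∀ {F q : ℂ → ℂ} {y ρ C₁ s : ℝ} {A P θ : ℂ × ℂ → ℂ},
      Differentiable ℂ F → AnalyticOnNhd ℂ A (Tb y ρ) → (∀ t : ℂ, |t.im| < y → A (t, 0) = F t) →
      Po F q y ρ A P θ → Lo1 ρ C₁ θ → 0 < ρ → ρ ≤ 1 → 4 * ρ < y → CL ≤ s →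
      Real.log (1 / ρ) ≤ s → y ≤ s → 1 ≤ C₁ → C₁ * ρ ≤ (s⁻¹) ^ 6 → ∀ x : ℂ,
      |x.im| < y - (s⁻¹) ^ 4 → ‖deriv F x‖ ≤ CL * s ^ 4 / ρ)
    (N : Nu C₁ e₁ CL CS y D r K σ) (W : Win α p y D r K) {τ : ℝ} (hτ : |τ| ≤ K + 4) {z : ℂ}
    (hz : |z.im| ≤ y + D * (τ - 1) - D / 2) : ‖deriv F z‖ ≤ CL * σ ^ 4 / (r * Real.exp (-τ)) := by
  have hD := N.D0
  have hr := N.r0
  have h2 := N.h2
  have hτ1 := (abs_le.1 hτ).1
  have hτ2 := (abs_le.1 hτ).2
  set ρ := r * Real.exp (-τ) with hρ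
  have hρ0 : 0 < ρ := by positivity
  have hρm : ρ ≤ r * Real.exp (K + 4) := N.rho hτ
  have hρ16 : ρ ≤ 1 / 16 := hρm.trans N.h1a
  set y' := y + D * (τ - 1) - D / 4 with hy'
  have hyl : 1 ≤ y' := by
    have : D * (-(K + 5) + 0) ≤ D * (τ - 1) := mul_le_mul_of_nonneg_left (by linarith) hD.le
    nlinarith
  obtain ⟨A, P, T⟩ := W τ y' hτ (by linarith) (by rw [hy']; linarith)
  obtain ⟨θ, Pθ, Lθ⟩ := hP T (hρm.trans N.h1e) (by linarith)
  have hlog : Real.log (1 / ρ) ≤ σ := by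
    have e1 : Real.log (1 / ρ) = Real.log (1 / r) + τ := by
      rw [hρ, one_div, one_div, Real.log_inv, Real.log_inv, Real.log_mul hr.ne'
        (Real.exp_pos _).ne', Real.log_exp]
      ring
    have := N.h4
    rw [e1]
    linarith
  have hys : y' ≤ σ := by
    have h3 := N.h3
    have : D * (τ - 1) ≤ D * (K + 4) := mul_le_mul_of_nonneg_left (by linarith) hD.le
    linarith
  exact hL (y := y') (ρ := ρ) E.dF T.aA (fun t ht => (T.ax E t ht).1) Pθ Lθ hρ0 (by linarith)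
    (by linarith) N.h5 hlog hys N.C1 ((mul_le_mul_of_nonneg_left hρm (by linarith [N.C1])).trans N.h1)
    z (by have := N.h6; rw [hy']; linarith)

/-- bound of `Q` -/
theorem Q_bd (B : Bs Λ F q Q) {l : ℝ} (hl : 0 ≤ l)
    (hlow : ∀ x : ℝ, (deriv F x).im = 0 ∧ Real.exp (-l) ≤ (deriv F x).re) (hCL : 1 ≤ CL)
    (N : Nu C₁ e₁ CL CS y D r K σ)
    (hg : ∀ {τ : ℝ} {z : ℂ}, |τ| ≤ K + 4 → |z.im| ≤ y + D * (τ - 1) - D / 2 →
      ‖deriv F z‖ ≤ CL * σ ^ 4 / (r * Real.exp (-τ))) {z : ℂ} (hz : |z.im| ≤ y + K * D) :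
    ‖Q z‖ ≤ 3 * 10 ^ 10 * (5 * σ + l + 1) ^ 4 / (min D 1) ^ 6 := by
  have hD := N.D0
  have hr := N.r0
  have hK := N.K0
  have hσ := N.σ1
  set R := min D 1 with hR
  have hR0 : 0 < R := lt_min hD one_pos
  have hRD : R ≤ D := min_le_left _ _
  have hx := H967.D2.Q_bound (g := deriv F) B.dg B.dQ B.gQ B.gp hlow hl (A := 5 * σ)
    (Y := y + D * (K + 1)) (R := R) (by linarith) hR0 (min_le_right _ _) ?_ (z := z) ?_
  · exact hx
  · intro z hz
    have h1 := hg (τ := K + 3) (z := z) (by rw [abs_of_nonneg (by linarith)]; linarith)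
      (by nlinarith)
    refine h1.trans ?_
    -- `CL σ^4 e^{K+3} / r ≤ e^{5σ}`
    have e1 : CL * σ ^ 4 / (r * Real.exp (-(K + 3))) = CL * σ ^ 4 * Real.exp (Real.log (1 / r) + K + 3) := by
      have e2 : Real.exp (Real.log (1 / r) + K + 3) = 1 / r * Real.exp (K + 3) := by
        rw [add_assoc, Real.exp_add, Real.exp_log (by positivity)]
      rw [e2, Real.exp_neg]
      field_simp
    rw [e1]
    have h2 : Real.exp (Real.log (1 / r) + K + 3) ≤ Real.exp (σ - 1) := Real.exp_le_exp.2 (by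
      have := N.h4; linarith)
    have h3 : CL ≤ Real.exp (σ - 1) := N.h5.trans (by have := Real.add_one_le_exp (σ - 1); linarith)
    have h4 : σ ^ 4 ≤ Real.exp (3 * σ + 2) := by
      have h5 : σ ≤ Real.exp (σ - 1) := by have := Real.add_one_le_exp (σ - 1); linarith
      have h6 : σ ≤ Real.exp ((3 * σ + 2) / 4) := by
        have := Real.add_one_le_exp ((3 * σ + 2) / 4)
        have h7 : σ / 2 ≤ Real.exp (σ / 2 - 1) := by
          have := Real.add_one_le_exp (σ / 2 - 1); linarith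
        have h8 : (2 : ℝ) ≤ Real.exp 1 := by have := Real.add_one_le_exp (1 : ℝ); linarith
        calc σ = σ / 2 * 2 := by ring
          _ ≤ Real.exp (σ / 2 - 1) * Real.exp 1 := mul_le_mul h7 h8 (by norm_num) (Real.exp_pos _).le
          _ = Real.exp (σ / 2) := by rw [← Real.exp_add]; ring_nf
          _ ≤ _ := Real.exp_le_exp.2 (by linarith)
      calc σ ^ 4 ≤ Real.exp ((3 * σ + 2) / 4) ^ 4 := pow_le_pow_left₀ (by linarith) h6 4
        _ = Real.exp (3 * σ + 2) := by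
          rw [← Real.exp_nat_mul]; congr 1; push_cast; ring
    calc CL * σ ^ 4 * Real.exp (Real.log (1 / r) + K + 3)
        ≤ Real.exp (σ - 1) * Real.exp (3 * σ + 2) * Real.exp (σ - 1) := by
          apply mul_le_mul (mul_le_mul h3 h4 (by positivity) (Real.exp_pos _).le) h2
            (Real.exp_pos _).le (by positivity)
      _ = Real.exp (5 * σ) := by rw [← Real.exp_add, ← Real.exp_add]; congr 1; ring
  · nlinarith

end

end Vale.Agent.P097.CD
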