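import Vale.Agent.P097.H531.CD.Sizes
import Vale.Agent.P097.H531.CD.Height

/-! # P097 / case [d]: the theorem, from the rows -/

set_option linter.all false

open Complex Metric Filter Topology Set
open scoped ComplexConjugate

namespace Vale.Agent.P097.CD

open Vale.Agent.P097 Vale.Agent.P097.TA Vale.Agent.P097.H202 Vale.Agent.P097.SC
open Vale.Agent.P097.H456.Fct

/-- Row C with a smaller constant -/
theorem rowC_min (hC : RowC) : ∃ ε₁ > 0, ε₁ ≤ 1 ∧ ∀ {Λ : ℝ} {F q Q : ℂ → ℂ}, Bs Λ F q Q →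
    ∀ {c : ℂ} {D r v K : ℝ}, 0 < D → 0 < r → 1 ≤ v → 400 * (v + 60) ≤ K → K * r ≤ ε₁ * D →
    (∀ z ∈ ball c (K * D), ‖deriv F z‖ * r * K ≤ ε₁ ∧ ‖Q z‖ * r * K * D ≤ ε₁) →
    ∀ {A P θ : ℂ × ℂ → ℂ}, AnalyticOnNhd ℂ A (LoR c D r v K) → AnalyticOnNhd ℂ P (LoR c D r v K) →
    AnalyticOnNhd ℂ θ (LoR c D r v K) →
    (∀ t w : ℂ, (t, w) ∈ LoR c D r v K → ‖θ (t, w) - t‖ ≤ D) →
    (∀ t : ℂ, (t, (0 : ℂ)) ∈ LoR c D r v K → A (t, 0) = F t) →
    (∀ t w : ℂ, (t, w) ∈ LoR c D r v K → A (t, -w) = A (t, w) ∧ P (t, -w) = P (t, w) ∧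
      θ (t, -w) = θ (t, w)) →
    (∀ t w : ℂ, (t + w / 2, w) ∈ LoR c D r v K → (t - w / 2, w) ∈ LoR c D r v K →
      ‖θ (t + w / 2, w) - θ (t - w / 2, w) - w‖ ≤ ε₁ * ‖w‖ ∧
      A (t + w / 2, w) + A (t - w / 2, w) = 2 * F (θ (t, w)) ∧
      P (t + w / 2, w) + P (t - w / 2, w) =
        2 * q (θ (t, w)) * cos ((A (t + w / 2, w) - A (t - w / 2, w)) / 2) ∧
      deriv F (θ (t, w)) * (P (t + w / 2, w) - P (t - w / 2, w)) =
        2 * deriv q (θ (t, w)) * sin ((A (t + w / 2, w) - A (t - w / 2, w)) / 2)) →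
    ∃ A' P' : ℂ × ℂ → ℂ, AnalyticOnNhd ℂ A' (UpR c D r v) ∧ AnalyticOnNhd ℂ P' (UpR c D r v) ∧
      ∀ u ∈ LoR c D r v K ∩ UpR c D r v, A' u = A u ∧ P' u = P u := by
  obtain ⟨ε, hε, h⟩ := hC
  refine ⟨min ε 1, lt_min hε one_pos, min_le_right _ _, ?_⟩
  intro Λ F q Q B c D r v K h1 h2 h3 h4 h5 h6 A P θ h7 h8 h9 h10 h11 h12 h13
  have hm : min ε 1 ≤ ε := min_le_left _ _
  exact h B h1 h2 h3 h4 (h5.trans (mul_le_mul_of_nonneg_right hm h1.le))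
    (fun z hz => ⟨(h6 z hz).1.trans hm, (h6 z hz).2.trans hm⟩) h7 h8 h9 h10 h11 h12
    (fun t w a b => ⟨(h13 t w a b).1.trans (mul_le_mul_of_nonneg_right hm (norm_nonneg _)),
      (h13 t w a b).2⟩)

/-- **case [d] from the rows** -/
theorem caseD_of (hB : RowB) (hE : SecE) (hY1 : RowY1) (hP : RowP) (hS : RowS) (hL : RowL)
    (hC : RowC) (hF : RowF) (hSp : RowSp) (hTC : RowTC)
    {h : ℝ → ℝ} {κ ρ' Λ L : ℝ} {H HH lam Φ : ℂ → ℂ} {l φ : ℝ → ℝ} {r₀ e₀ : ℝ}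
    {α p : ℂ → ℂ → ℂ} {J F q : ℂ → ℂ} (D₀ : LD h κ ρ' Λ L H HH lam Φ l φ)
    (Ln : Lines κ Λ H Φ r₀ e₀ α p J) (E : En κ Λ H Φ r₀ e₀ α p J F q) :
    ∃ a b φ p q : ℝ, 0 < a ∧ 0 < b ∧ h = fun ψ => p * Real.cos ψ + q * Real.sin ψ +
      √(a ^ 2 * Real.cos (ψ - φ) ^ 2 + b ^ 2 * Real.sin (ψ - φ) ^ 2) := by
  by_contra hcon
  have hne : ∀ ρ > 0, ∃ y > 0, ¬ Ext α p y ρ := by
    intro ρ hρ
    by_contra h1
    push Not at h1
    exact hcon (rowY2 D₀ Ln hρ h1)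
  have hY0 : RowY0 := rowY0 hE
  obtain ⟨s₀, P⟩ := heights E hY0 hY1 hne
  obtain ⟨Q, B⟩ := hB E
  obtain ⟨e₁, he₁, C₁, hC₁, hP'⟩ := hP E B
  obtain ⟨CS, hCS, hS'⟩ := hS
  obtain ⟨CL, hCL, hL'⟩ := hL
  obtain ⟨ε₁, hε0, hε1, hC'⟩ := rowC_min hC
  obtain ⟨e₂, he₂, hSp'⟩ := hSp E B
  obtain ⟨l', hl, hlow⟩ := B.low
  obtain ⟨c, hc, hlin⟩ := P.lin
  have hc0 : 0 < c := by linarith
  -- all sizes from some `S` on
  obtain ⟨S, hS₀⟩ := eventually_atTop.1 ((ev_Sz C₁ CL CS l' c he₁ he₂ hε0).and hlin)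
  obtain ⟨s, D, hsS, hs1, hD1, hs0, hτ⟩ := Sel.rowSel P.conc P.mono P.top (max S 1)
  obtain ⟨⟨R, Z⟩, hYs⟩ := hS₀ s ((le_max_left _ _).trans hsS)
  have hs10 := Z.s10
  have hspos : 0 < s := by linarith
  have hL3 := Z.L3
  have hD0 := Z.D0 hD1
  set y := HY α p s with hy
  have hs0' : s₀ ≤ s := by linarith
  -- lower end
  have hy1 : 1 ≤ y - D * Real.log s ^ 3 := by
    have h1 := (hτ (-Real.log s ^ 3) (by rw [abs_neg, abs_of_pos (by linarith)])).2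
    have h2 := P.one (s + -Real.log s ^ 3) (by linarith)
    have e1 : D * -Real.log s ^ 3 = -(D * Real.log s ^ 3) := by ring
    rw [e1] at h1
    linarith
  -- upper end
  have hy2 : y + D * (Real.log s ^ 3 - 1) ≤ c * s := by
    have h1 := (hτ (Real.log s ^ 3) (by rw [abs_of_pos (by linarith)])).1
    have h2 := (hS₀ (s + Real.log s ^ 3) (by
      have := (le_max_left S 1).trans hsS
      linarith)).2
    have b4 := Z.b4
    have h3 : c / 2 * (s + Real.log s ^ 3) ≤ c / 2 * (2 * s) :=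
      mul_le_mul_of_nonneg_left (by linarith) (by positivity)
    linarith
  have hD2 : D ≤ c * s := by
    have h1 : D * 1 ≤ D * (Real.log s ^ 3 - 1) := mul_le_mul_of_nonneg_left (by linarith) hD0.le
    have h2 : 0 ≤ D * Real.log s ^ 3 := by positivity
    linarith
  set v := 60 + 4 * Real.log (c * s) with hv
  set K₁ := 400 * (v + 60) with hK₁
  have hK₁' : K₁ = 400 * (60 + 4 * Real.log (c * s) + 60) := by rw [hK₁, hv]
  have N := Z.nu (D := D) (y := y) hC₁ hCL hCS hl hc hD1 hy1 hy2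
  have N2 := Z.nu2 (D := D) (y := y) hCL hCS hl hc hε0 hε1 hD1 hD2 hK₁'
  have N3 := Z.nu3 (D := D) (y := y) hC₁ hCL hCS hl hc hε0 hD1 hv (le_refl K₁)
  have W : Win α p y D (Real.exp (-s)) (Real.log s ^ 3 / 2) := by
    intro τ y' hτ1 hy' hyy
    have h1 := (hτ τ (hτ1.trans (by linarith))).1
    have h2 := (abs_le.1 hτ1).1
    have h3 := P.lt (s + τ) (by linarith) y' hy' (by linarith)
    have e1 : Real.exp (-s) * Real.exp (-τ) = Real.exp (-(s + τ)) := by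
      rw [← Real.exp_add]; congr 1; ring
    rw [e1]; exact h3
  have hg : ∀ {τ : ℝ} {z : ℂ}, |τ| ≤ Real.log s ^ 3 / 2 + 4 → |z.im| ≤ y + D * (τ - 1) - D / 2 →
      ‖deriv F z‖ ≤ CL * (c * s) ^ 4 / (Real.exp (-s) * Real.exp (-τ)) :=
    fun h1 h2 => g_bound E B hP' hL' N W h1 h2
  obtain ⟨x₀, hx₀⟩ := place B hl hlow hCL N N2 hg
  -- the second tube
  have hlog := log10
  have hl10 : 0 < Real.log 10 := Real.log_pos (by norm_num)
  obtain ⟨A2, P2, T2⟩ := W (-Real.log 10) (y - 7 / 2 * D)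
    (by rw [abs_neg, abs_of_pos hl10]; linarith)
    (by
      have h1 : D * (7 / 2) ≤ D * Real.log s ^ 3 := mul_le_mul_of_nonneg_left (by linarith) hD0.le
      linarith)
    (by nlinarith)
  rw [neg_neg, Real.exp_log (by norm_num : (0 : ℝ) < 10), mul_comm (Real.exp (-s)) 10] at T2
  obtain ⟨A', P', a1, a2, a3⟩ := climb_win E B hP' hS' (hC' B) hCS N N2 N3 W hx₀ T2
  have hr0 : 0 < Real.exp (-s) := Real.exp_pos _
  have hfin := ext_win E hY0 hF hTC hSp' (v := v) (y := y) (D := D) (r := Real.exp (-s)) hD0 hr0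
    N3.v60 (by
      have h1 := N.h2
      have h2 := N3.vK
      have h3 : D * (v + 2) ≤ D * (Real.log s ^ 3 / 2 + 6) :=
        mul_le_mul_of_nonneg_left (by linarith) hD0.le
      linarith)
    (by
      have h1 := N.h1d
      have h2 : 1 ≤ Real.exp (Real.log s ^ 3 / 2 + 4) := Real.one_le_exp (by linarith)
      have h3 : Real.exp (-s) ≤ Real.exp (-s) * Real.exp (Real.log s ^ 3 / 2 + 4) :=
        le_mul_of_one_le_right hr0.le h2
      linarith)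
    N3.re T2 a1 a2 a3
  have hle := P.le s (y + D / 5) (2 * Real.exp (-s)) (by linarith [mul_pos hD0 (by linarith : 0 < Real.log s ^ 3)])
    (by linarith) hfin
  rw [← hy] at hle
  linarith

end Vale.Agent.P097.CD
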