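import Vale.Agent.P097.H531.CD.G

/-! # P097 / case [d]: the place `x₀` -/

set_option linter.all false

open Complex Metric Filter Topology Set
open scoped ComplexConjugate

namespace Vale.Agent.P097.CD

open Vale.Agent.P097 Vale.Agent.P097.TA Vale.Agent.P097.H202 Vale.Agent.P097.SC
open Vale.Agent.P097.H456.Fct

/-- sizes in the window (part 2) -/
structure Nu2 (CL σ r l y D K K₁ ε₁ : ℝ) : Prop where
  ε0 : 0 < ε₁
  ε1 : ε₁ ≤ 1
  K1 : 1 ≤ K₁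
  KK : 17 * K₁ ≤ K
  pl : 200000 * (Real.log (CL * σ ^ 4 * Real.exp 2 / (ε₁ / K₁)) + K₁ + 1) ^ 4 / (K - K₁) ^ 2 +
    600 * (Real.log (CL * σ ^ 4 * Real.exp 2 / (ε₁ / K₁)) + K₁ + 1) ^ 2 / (K - K₁) < 1
  q : 3 * 10 ^ 10 * (5 * σ + l + 1) ^ 4 / (min D 1) ^ 6 * r * K₁ * D ≤ ε₁
  rD : K₁ * r ≤ ε₁ * D

section
variable {κ Λ : ℝ} {H Φ : ℂ → ℂ} {r₀ e₀ : ℝ} {α p : ℂ → ℂ → ℂ} {J F q Q : ℂ → ℂ}
variable {C₁ e₁ CL CS y D r K σ l K₁ ε₁ : ℝ}

theorem place (B : Bs Λ F q Q) (hl : 0 ≤ l)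
    (hlow : ∀ x : ℝ, (deriv F x).im = 0 ∧ Real.exp (-l) ≤ (deriv F x).re) (hCL : 1 ≤ CL)
    (N : Nu C₁ e₁ CL CS y D r K σ) (N2 : Nu2 CL σ r l y D K K₁ ε₁)
    (hg : ∀ {τ : ℝ} {z : ℂ}, |τ| ≤ K + 4 → |z.im| ≤ y + D * (τ - 1) - D / 2 →
      ‖deriv F z‖ ≤ CL * σ ^ 4 / (r * Real.exp (-τ))) :
    ∃ x₀ : ℝ, ∀ z ∈ ball ((x₀ : ℂ) + y * I) (K₁ * D),
      ‖deriv F z‖ * r * K₁ ≤ ε₁ ∧ ‖Q z‖ * r * K₁ * D ≤ ε₁ := by
  have hD := N.D0
  have hr := N.r0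
  have hσ := N.σ1
  have hK1 := N2.K1
  have hKK := N2.KK
  have hε0 := N2.ε0
  have hK1p : 0 < K₁ := by linarith
  have hKp : 0 < K := by linarith
  have h2 := N.h2
  have hεB : ε₁ / K₁ ≤ CL * σ ^ 4 * Real.exp 2 := by
    -- ε ≤ B
    have h3 : ε₁ / K₁ ≤ 1 := by
      rw [div_le_one hK1p]
      linarith [N2.ε1]
    have h4 : 1 ≤ CL * σ ^ 4 * Real.exp 2 := by
      have h5 : (1 : ℝ) ≤ σ ^ 4 := one_le_pow₀ hσ
      have h6 : (1 : ℝ) ≤ Real.exp 2 := Real.one_le_exp (by norm_num)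
      have h7 : 1 ≤ CL * σ ^ 4 := one_le_mul_of_one_le_of_one_le hCL h5
      exact one_le_mul_of_one_le_of_one_le h7 h6
    linarith
  have hgr : ∀ z : ℂ, |z.im - y| ≤ K * D →
      ‖deriv F z‖ ≤ CL * σ ^ 4 * Real.exp 2 / r * Real.exp ((z.im - y) / D) := by
    intro z hz
    have hz1 := (abs_le.1 hz).1
    have hz2 := (abs_le.1 hz).2
    have hzp : 0 ≤ z.im := by nlinarith
    set τ := (z.im - y) / D + 2 with hτ
    have e1 : D * (τ - 1) = z.im - y + D := by rw [hτ]; field_simp; ring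
    have hτa : |(z.im - y) / D| ≤ K := by
      rw [abs_div, abs_of_pos hD, div_le_iff₀ hD]; exact hz
    have h3 : |τ| ≤ K + 4 := by
      have h4 := abs_add_le ((z.im - y) / D) 2
      rw [abs_two] at h4
      rw [hτ]; linarith
    have h4 := hg h3 (z := z) (by rw [e1, abs_of_nonneg hzp]; linarith)
    refine h4.trans (le_of_eq ?_)
    rw [hτ, Real.exp_neg, Real.exp_add]
    field_simp
  obtain ⟨x₀, hx₀⟩ := H967.D2.place (g := deriv F) (Q := Q) (l := l) B.dg B.dQ B.gQ B.gp B.Qp hlow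
    (y := y) (D := D) (r := r) (B := CL * σ ^ 4 * Real.exp 2) (ε := ε₁ / K₁) (K := K) (K₁ := K₁)
    hD hr (by positivity) hεB hK1p.le hKp hKK hgr N2.pl
  refine ⟨x₀, fun z hz => ⟨?_, ?_⟩⟩
  · have h3 := hx₀ z (mem_ball_iff_norm.1 hz).le
    have h4 : ‖deriv F z‖ * r * K₁ ≤ ε₁ / K₁ * K₁ :=
      mul_le_mul_of_nonneg_right h3.le hK1p.le
    rwa [div_mul_cancel₀ _ hK1p.ne'] at h4
  · have h3 : |z.im| ≤ y + K * D := by
      have h4 : |z.im - y| < K₁ * D := by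
        have h5 := abs_im_le_norm (z - ((x₀ : ℂ) + y * I))
        have h6 : (z - ((x₀ : ℂ) + y * I)).im = z.im - y := by simp
        rw [h6] at h5
        exact h5.trans_lt (mem_ball_iff_norm.1 hz)
      have h5 : |z.im| ≤ |z.im - y| + |y| := by
        have := abs_add_le (z.im - y) y
        simpa using this
      have hy : 0 ≤ y := by nlinarith
      rw [abs_of_nonneg hy] at h5
      have h6 : K₁ * D ≤ K * D := mul_le_mul_of_nonneg_right (by linarith) hD.le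
      linarith
    have h4 := Q_bd B hl hlow hCL N hg h3
    refine le_trans ?_ N2.q
    have h5 : 0 ≤ r * K₁ * D := by positivity
    calc ‖Q z‖ * r * K₁ * D = ‖Q z‖ * (r * K₁ * D) := by ring
      _ ≤ 3 * 10 ^ 10 * (5 * σ + l + 1) ^ 4 / (min D 1) ^ 6 * (r * K₁ * D) :=
        mul_le_mul_of_nonneg_right h4 h5
      _ = _ := by ring

end

end Vale.Agent.P097.CD
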