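import Vale.Agent.P097.H531.CD.Fin

/-! # P097 / case [d]: the sizes in the window, for large `s` -/

set_option linter.all false

open Complex Metric Filter Topology Set
open scoped ComplexConjugate

namespace Vale.Agent.P097.CD

open Vale.Agent.P097 Vale.Agent.P097.TA Vale.Agent.P097.H202 Vale.Agent.P097.SC
open Vale.Agent.P097.H456.Fct

theorem log_le (n : ℕ) (ε : ℝ) (hε : 0 < ε) : ∀ᶠ s : ℝ in atTop, Real.log s ^ n ≤ ε * s := by
  have h1 := (Real.isLittleO_pow_log_id_atTop (n := n)).bound hε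
  filter_upwards [h1, eventually_ge_atTop (1 : ℝ)] with s hs h2
  rw [id, Real.norm_of_nonneg (show (0 : ℝ) ≤ s by linarith)] at hs
  exact (Real.le_norm_self _).trans hs

/-- exponentials win -/
theorem big (M : ℝ) (n : ℕ) :
    ∀ᶠ s : ℝ in atTop, M * s ^ n * Real.exp (Real.log s ^ 3 / 2 + 4) ≤ Real.exp s := by
  have h1 := log_le 3 (1 / 8) (by norm_num)
  have h2 := log_le 1 (1 / (8 * (n + 1))) (by positivity)
  filter_upwards [h1, h2, eventually_ge_atTop (1 : ℝ), eventually_ge_atTop (8 * (|M| + 4))] with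
    s h3 h4 h5 h6
  have hs : 0 < s := by linarith
  have h7 : M ≤ Real.exp |M| := by
    have := Real.add_one_le_exp |M|
    have := le_abs_self M
    linarith
  have h8 : s ^ n = Real.exp (n * Real.log s) := by
    rw [Real.exp_nat_mul, Real.exp_log hs]
  have h9 : (n : ℝ) * Real.log s ≤ s / 8 := by
    rw [pow_one] at h4
    have hn : (0 : ℝ) ≤ n := Nat.cast_nonneg n
    calc (n : ℝ) * Real.log s ≤ n * (1 / (8 * (n + 1)) * s) := mul_le_mul_of_nonneg_left h4 hn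
      _ = (n / (n + 1)) * (s / 8) := by field_simp
      _ ≤ 1 * (s / 8) := by
        apply mul_le_mul_of_nonneg_right _ (by positivity)
        rw [div_le_one (by positivity)]; linarith
      _ = s / 8 := one_mul _
  calc M * s ^ n * Real.exp (Real.log s ^ 3 / 2 + 4)
      ≤ Real.exp |M| * s ^ n * Real.exp (Real.log s ^ 3 / 2 + 4) := by
        apply mul_le_mul_of_nonneg_right _ (Real.exp_pos _).le
        exact mul_le_mul_of_nonneg_right h7 (by positivity)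
    _ = Real.exp (|M| + n * Real.log s + (Real.log s ^ 3 / 2 + 4)) := by
        rw [h8, Real.exp_add (|M| + n * Real.log s), Real.exp_add |M|]
    _ ≤ Real.exp s := Real.exp_le_exp.2 (by linarith)

/-- cubes of logarithms win -/
theorem cub (a b : ℝ) : ∀ᶠ s : ℝ in atTop, a * Real.log s + b ≤ Real.log s ^ 3 / 4 := by
  filter_upwards [Real.tendsto_log_atTop.eventually_ge_atTop (4 * (|a| + |b| + 1))] with s hs
  set L := Real.log s
  have ha := le_abs_self a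
  have hb := le_abs_self b
  have ha0 := abs_nonneg a
  have hb0 := abs_nonneg b
  have hL : 4 ≤ L := by linarith
  have h1 : a * L + b ≤ (|a| + |b|) * L := by nlinarith
  have h2 : (|a| + |b|) * L ≤ L / 4 * L := by
    apply mul_le_mul_of_nonneg_right _ (by linarith)
    linarith
  nlinarith [mul_nonneg (by linarith : 0 ≤ L) (by linarith : 0 ≤ L), sq_nonneg L]

/-- the facts on `s` -/
structure Sz (C₁ e₁ e₂ CL CS l ε₁ c s R : ℝ) : Prop where
  s10 : 10 ≤ s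
  L11 : 10 ^ 11 ≤ Real.log s
  Rd : R = Real.exp (-s) * Real.exp (Real.log s ^ 3 / 2 + 4)
  c1 : R * (C₁ * c ^ 6 * s ^ 6) ≤ 1
  c2 : R * 1 ≤ e₁
  c3 : R * (64 * s ^ 2) ≤ 1
  c5 : R * (3 * 10 ^ 10 * (7 * c) ^ 4 * 4096 * c * s ^ 18) ≤ ε₁
  c6 : R * (4 * s ^ 3) ≤ ε₁
  c7 : R * (80 * CS * C₁ * s ^ 2) ≤ 1
  c8 : R * 6 ≤ e₂
  b4 : Real.log s ^ 3 ≤ 1 / 4 * s
  b9 : 4 * 5 * 17 * 1600 * Real.log s + (17 * 400 * (120 + 4 * Real.log c) + 60 + 100) ≤
    Real.log s ^ 3 / 4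
  b10 : 1600 * Real.log s + 400 * (120 + 4 * Real.log c) ≤ Real.log s ^ 3 / 4
  b11 : Real.log s ≤ 1 / 3200 * s
  b13 : Real.log CL - Real.log ε₁ + 3 + 4 * Real.log c + 800 * (120 + 4 * Real.log c) ≤ Real.log s
  b15 : CL + l + 4 + 10 * CS ≤ s
  b16 : 800 * CS ≤ s
  b17 : 100 * CS / ε₁ ≤ s
  b18 : 800 * (120 + 4 * Real.log c) ≤ s

theorem key_R {s E : ℝ} {X Z : ℝ} (hZ : 0 < Z) (h : X / Z * E ≤ Real.exp s) :
    Real.exp (-s) * E * X ≤ Z := by
  have hrs : Real.exp (-s) * Real.exp s = 1 := by rw [← Real.exp_add]; simp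
  have h1 : Real.exp (-s) * (X / Z * E) ≤ 1 := by
    rw [← hrs]; exact mul_le_mul_of_nonneg_left h (Real.exp_pos _).le
  have h2 : Real.exp (-s) * E * X = Real.exp (-s) * (X / Z * E) * Z := by field_simp
  rw [h2]
  calc _ ≤ 1 * Z := mul_le_mul_of_nonneg_right h1 hZ.le
    _ = Z := one_mul _

theorem ev_Sz (C₁ : ℝ) {e₁ : ℝ} {e₂ : ℝ} (CL CS l : ℝ) {ε₁ : ℝ} (c : ℝ) (he₁ : 0 < e₁)
    (he₂ : 0 < e₂) (hε0 : 0 < ε₁) :
    ∀ᶠ s : ℝ in atTop, ∃ R, Sz C₁ e₁ e₂ CL CS l ε₁ c s R := by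
  filter_upwards [big (C₁ * c ^ 6) 6, big (1 / e₁) 0, big 64 2, log_le 3 (1 / 4) (by norm_num),
    big (3 * 10 ^ 10 * (7 * c) ^ 4 * 4096 * c / ε₁) 18, big (4 / ε₁) 3, big (80 * CS * C₁) 2,
    big (6 / e₂) 0, cub (4 * 5 * 17 * 1600) (17 * 400 * (120 + 4 * Real.log c) + 60 + 100),
    cub 1600 (400 * (120 + 4 * Real.log c)),
    log_le 1 (1 / 3200) (by norm_num),
    Real.tendsto_log_atTop.eventually_ge_atTop (10 ^ 11),
    Real.tendsto_log_atTop.eventually_ge_atTop (Real.log CL - Real.log ε₁ + 3 + 4 * Real.log c +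
      800 * (120 + 4 * Real.log c)),
    eventually_ge_atTop (10 : ℝ), eventually_ge_atTop (CL + l + 4 + 10 * CS),
    eventually_ge_atTop (800 * CS), eventually_ge_atTop (100 * CS / ε₁),
    eventually_ge_atTop (800 * (120 + 4 * Real.log c))] with
    s b1 b2 b3 b4 b5 b6 b7 b8 b9 b10 b11 b12 b13 b14 b15 b16 b17 b18
  rw [pow_one] at b11
  rw [pow_zero, mul_one] at b2 b8
  refine ⟨_, b14, b12, rfl, key_R one_pos ?_, key_R he₁ ?_, key_R one_pos ?_, key_R hε0 ?_,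
    key_R hε0 ?_, key_R one_pos ?_, key_R he₂ ?_, b4, b9, b10, b11, b13, b15, b16, b17, b18⟩
  · rw [div_one]; exact b1
  · exact b2
  · rw [div_one]; exact b3
  · refine le_trans (le_of_eq ?_) b5
    ring
  · refine le_trans (le_of_eq ?_) b6
    ring
  · rw [div_one]; exact b7
  · exact b8

section
variable {C₁ e₁ e₂ CL CS l ε₁ c s R D y : ℝ}

theorem Sz.R0 (Z : Sz C₁ e₁ e₂ CL CS l ε₁ c s R) : 0 < R := by rw [Z.Rd]; positivity

theorem Sz.L0 (Z : Sz C₁ e₁ e₂ CL CS l ε₁ c s R) : 0 < Real.log s :=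
  lt_of_lt_of_le (by norm_num) Z.L11

theorem Sz.L3 (Z : Sz C₁ e₁ e₂ CL CS l ε₁ c s R) : 12 ≤ Real.log s ^ 3 := by
  have h1 : (12 : ℝ) ≤ (10 ^ 11) ^ 3 := by norm_num
  exact h1.trans (pow_le_pow_left₀ (by norm_num) Z.L11 3)

theorem Sz.rR (Z : Sz C₁ e₁ e₂ CL CS l ε₁ c s R) : Real.exp (-s) ≤ R := by
  have h1 : 1 ≤ Real.exp (Real.log s ^ 3 / 2 + 4) :=
    Real.one_le_exp (by have := Z.L3; linarith)
  rw [Z.Rd]
  exact le_mul_of_one_le_right (Real.exp_pos _).le h1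

theorem Sz.sσ (Z : Sz C₁ e₁ e₂ CL CS l ε₁ c s R) (hc : 2 ≤ c) : 2 * s ≤ c * s :=
  mul_le_mul_of_nonneg_right hc (by linarith [Z.s10])

theorem Sz.lσ (Z : Sz C₁ e₁ e₂ CL CS l ε₁ c s R) (hc : 2 ≤ c) :
    Real.log (c * s) = Real.log c + Real.log s :=
  Real.log_mul (by linarith) (by linarith [Z.s10])

theorem Sz.K₁e (Z : Sz C₁ e₁ e₂ CL CS l ε₁ c s R) (hc : 2 ≤ c) :
    400 * (60 + 4 * Real.log (c * s) + 60) =
      1600 * Real.log s + 400 * (120 + 4 * Real.log c) := by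
  rw [Z.lσ hc]; ring

theorem Sz.K₁s (Z : Sz C₁ e₁ e₂ CL CS l ε₁ c s R) (hc : 2 ≤ c) :
    400 * (60 + 4 * Real.log (c * s) + 60) ≤ s := by
  rw [Z.K₁e hc]
  have h1 := Z.b11
  have h2 := Z.b18
  linarith

theorem Sz.K₁1 (Z : Sz C₁ e₁ e₂ CL CS l ε₁ c s R) (hc : 2 ≤ c) :
    1 ≤ 400 * (60 + 4 * Real.log (c * s) + 60) := by
  rw [Z.K₁e hc]
  have h1 := Z.L0
  have h2 : 0 ≤ Real.log c := Real.log_nonneg (by linarith)
  linarith

theorem Sz.Dinv (Z : Sz C₁ e₁ e₂ CL CS l ε₁ c s R) (hD : 1 / (4 * s ^ 2) ≤ D) :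
    1 ≤ D * (4 * s ^ 2) := by
  have := Z.s10
  exact (div_le_iff₀ (by positivity : (0 : ℝ) < 4 * s ^ 2)).1 hD

theorem Sz.D0 (Z : Sz C₁ e₁ e₂ CL CS l ε₁ c s R) (hD : 1 / (4 * s ^ 2) ≤ D) : 0 < D := by
  have := Z.s10
  exact lt_of_lt_of_le (by positivity) hD

theorem Sz.nu (Z : Sz C₁ e₁ e₂ CL CS l ε₁ c s R) (hC₁ : 1 ≤ C₁) (hCL : 1 ≤ CL) (hCS : 1 ≤ CS)
    (hl : 0 ≤ l) (hc : 2 ≤ c) (hD1 : 1 / (4 * s ^ 2) ≤ D)
    (hy1 : 1 ≤ y - D * Real.log s ^ 3) (hy2 : y + D * (Real.log s ^ 3 - 1) ≤ c * s) :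
    Nu C₁ e₁ CL CS y D (Real.exp (-s)) (Real.log s ^ 3 / 2) (c * s) := by
  have hs10 := Z.s10
  have hL3 := Z.L3
  have hD0 := Z.D0 hD1
  have hDinv := Z.Dinv hD1
  have hσ2 := Z.sσ hc
  have hs0 : 0 < s := by linarith
  have hc0 : 0 < c := by linarith
  have hR0 := Z.R0
  have hs2 : (100 : ℝ) ≤ s ^ 2 := by
    have := pow_le_pow_left₀ (by norm_num) hs10 2
    linarith
  have c3 := Z.c3
  have c3' : R ≤ 1 / 16 := by
    have h1 : R * (64 * 100) ≤ R * (64 * s ^ 2) :=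
      mul_le_mul_of_nonneg_left (by linarith) hR0.le
    linarith
  have c3d : R ≤ D / 16 := by
    have h3 : (R * 16) * (4 * s ^ 2) ≤ D * (4 * s ^ 2) := le_trans (le_of_eq (by ring)) (c3.trans hDinv)
    have h4 := le_of_mul_le_mul_right h3 (by positivity)
    linarith
  have hlogr : Real.log (1 / Real.exp (-s)) = s := by
    rw [one_div, ← Real.exp_neg, neg_neg, Real.log_exp]
  have hRd := Z.Rd
  have b4 := Z.b4
  have b15 := Z.b15
  refine ⟨hD0, Real.exp_pos _, by linarith, hC₁, by linarith, ?_, ?_, ?_, ?_, ?_, ?_, ?_, ?_, ?_⟩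
  · rw [← hRd, inv_pow, ← one_div, le_div_iff₀ (by positivity)]
    refine le_trans (le_of_eq ?_) Z.c1
    ring
  · rw [← hRd]; have := Z.c2; linarith
  · rw [← hRd]; exact c3'
  · rw [← hRd]; exact c3d
  · have : D * (Real.log s ^ 3 / 2 + 6) ≤ D * Real.log s ^ 3 :=
      mul_le_mul_of_nonneg_left (by linarith) hD0.le
    linarith
  · have : D * (Real.log s ^ 3 / 2 + 4) ≤ D * (Real.log s ^ 3 - 1) :=
      mul_le_mul_of_nonneg_left (by linarith) hD0.le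
    linarith
  · rw [hlogr]; linarith
  · linarith
  · rw [inv_pow, ← one_div, div_le_iff₀ (by positivity)]
    have h1 : (2 * s) ^ 4 ≤ (c * s) ^ 4 := pow_le_pow_left₀ (by positivity) hσ2 4
    have h2 : D / 8 * (2 * s) ^ 4 ≤ D / 8 * (c * s) ^ 4 := mul_le_mul_of_nonneg_left h1 (by positivity)
    have h3 : D / 8 * (2 * s) ^ 4 = (D * (4 * s ^ 2)) * (s ^ 2 / 2) := by ring
    rw [h3] at h2
    have h4 : 1 * (s ^ 2 / 2) ≤ (D * (4 * s ^ 2)) * (s ^ 2 / 2) :=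
      mul_le_mul_of_nonneg_right hDinv (by positivity)
    linarith

theorem Sz.pl (Z : Sz C₁ e₁ e₂ CL CS l ε₁ c s R) (hCL : 1 ≤ CL) (hc : 2 ≤ c) (hε0 : 0 < ε₁)
    (hε1 : ε₁ ≤ 1) {K₁ : ℝ} (hK₁ : K₁ = 400 * (60 + 4 * Real.log (c * s) + 60)) :
    200000 * (Real.log (CL * (c * s) ^ 4 * Real.exp 2 / (ε₁ / K₁)) + K₁ + 1) ^ 4 /
      (Real.log s ^ 3 / 2 - K₁) ^ 2 +
    600 * (Real.log (CL * (c * s) ^ 4 * Real.exp 2 / (ε₁ / K₁)) + K₁ + 1) ^ 2 /
      (Real.log s ^ 3 / 2 - K₁) < 1 := by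
  have hs10 := Z.s10
  have hσ2 := Z.sσ hc
  have hs0 : 0 < s := by linarith
  have hc0 : 0 < c := by linarith
  have hσ1 : 1 ≤ c * s := by linarith
  have hσ0 : 0 < c * s := by linarith
  have hK₁e : K₁ = 1600 * Real.log s + 400 * (120 + 4 * Real.log c) := by rw [hK₁]; exact Z.K₁e hc
  have hK₁1 : 1 ≤ K₁ := by rw [hK₁]; exact Z.K₁1 hc
  have hK₁0 : 0 < K₁ := by linarith
  have hlσ := Z.lσ hc
  have hK₁4 : K₁ ≤ Real.log s ^ 3 / 4 := by rw [hK₁e]; exact Z.b10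
  have hL0' := Z.L0
  have b13 := Z.b13
  have hL11 := Z.L11
  set L := Real.log s with hL
  set X := Real.log (CL * (c * s) ^ 4 * Real.exp 2 / (ε₁ / K₁)) + K₁ + 1 with hX
  have hX1 : Real.log (CL * (c * s) ^ 4 * Real.exp 2 / (ε₁ / K₁)) =
      Real.log CL + 4 * (Real.log c + L) + 2 - (Real.log ε₁ - Real.log K₁) := by
    rw [Real.log_div (by positivity) (by positivity), Real.log_div hε0.ne' hK₁0.ne',
      Real.log_mul (by positivity) (by positivity), Real.log_mul (by positivity) (by positivity),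
      Real.log_exp, Real.log_pow, hlσ]
    norm_num
  have hX2 : Real.log K₁ ≤ K₁ := (Real.log_le_sub_one_of_pos hK₁0).trans (by linarith)
  have hX4 : X ≤ 4000 * L := by
    rw [hX, hX1]
    linarith
  have hX0 : 0 ≤ X := by
    have h1 : 0 ≤ Real.log (CL * (c * s) ^ 4 * Real.exp 2 / (ε₁ / K₁)) := by
      apply Real.log_nonneg
      rw [le_div_iff₀ (by positivity), one_mul]
      have h3 : ε₁ / K₁ ≤ 1 := by
        rw [div_le_one hK₁0]; linarith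
      have h5 : (1 : ℝ) ≤ (c * s) ^ 4 := one_le_pow₀ hσ1
      have h6 : (1 : ℝ) ≤ Real.exp 2 := Real.one_le_exp (by norm_num)
      have h7 : 1 ≤ CL * (c * s) ^ 4 := one_le_mul_of_one_le_of_one_le hCL h5
      have h8 : 1 ≤ CL * (c * s) ^ 4 * Real.exp 2 := one_le_mul_of_one_le_of_one_le h7 h6
      linarith
    rw [hX]; linarith
  clear_value X
  have hKm : L ^ 3 / 4 ≤ L ^ 3 / 2 - K₁ := by linarith
  have hL34 : 0 < L ^ 3 / 4 := by positivity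
  clear_value L
  have p1 : 200000 * X ^ 4 / (L ^ 3 / 2 - K₁) ^ 2 ≤ 200000 * (4000 * L) ^ 4 / (L ^ 3 / 4) ^ 2 := by
    apply div_le_div₀ (by positivity) _ (by positivity) (pow_le_pow_left₀ hL34.le hKm 2)
    exact mul_le_mul_of_nonneg_left (pow_le_pow_left₀ hX0 hX4 4) (by norm_num)
  have p2 : 600 * X ^ 2 / (L ^ 3 / 2 - K₁) ≤ 600 * (4000 * L) ^ 2 / (L ^ 3 / 4) := by
    apply div_le_div₀ (by positivity) _ (by positivity) hKm
    exact mul_le_mul_of_nonneg_left (pow_le_pow_left₀ hX0 hX4 2) (by norm_num)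
  have p3 : 200000 * (4000 * L) ^ 4 / (L ^ 3 / 4) ^ 2 ≤ 1 / 10 := by
    rw [div_le_iff₀ (by positivity)]
    have h1 : (10 ^ 11) ^ 2 * L ^ 4 ≤ L ^ 2 * L ^ 4 :=
      mul_le_mul_of_nonneg_right (pow_le_pow_left₀ (by norm_num) hL11 2) (by positivity)
    have h2 : 200000 * (4000 * L) ^ 4 = 200000 * 4000 ^ 4 * L ^ 4 := by ring
    have h3 : 1 / 10 * (L ^ 3 / 4) ^ 2 = 1 / 160 * (L ^ 2 * L ^ 4) := by ring
    rw [h2, h3]
    have h4 : 0 ≤ L ^ 4 := by positivity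
    linarith
  have p4 : 600 * (4000 * L) ^ 2 / (L ^ 3 / 4) ≤ 1 / 2 := by
    rw [div_le_iff₀ (by positivity)]
    have h1 : 10 ^ 11 * L ^ 2 ≤ L * L ^ 2 :=
      mul_le_mul_of_nonneg_right hL11 (by positivity)
    have h2 : 600 * (4000 * L) ^ 2 = 600 * 4000 ^ 2 * L ^ 2 := by ring
    have h3 : 1 / 2 * (L ^ 3 / 4) = 1 / 8 * (L * L ^ 2) := by ring
    rw [h2, h3]
    have h4 : 0 ≤ L ^ 2 := by positivity
    linarith
  linarith

theorem Sz.nu2 (Z : Sz C₁ e₁ e₂ CL CS l ε₁ c s R) (hCL : 1 ≤ CL) (hCS : 1 ≤ CS)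
    (hl : 0 ≤ l) (hc : 2 ≤ c) (hε0 : 0 < ε₁)
    (hε1 : ε₁ ≤ 1) (hD1 : 1 / (4 * s ^ 2) ≤ D) (hD2 : D ≤ c * s) {K₁ : ℝ}
    (hK₁ : K₁ = 400 * (60 + 4 * Real.log (c * s) + 60)) :
    Nu2 CL (c * s) (Real.exp (-s)) l y D (Real.log s ^ 3 / 2) K₁ ε₁ := by
  have hs10 := Z.s10
  have hσ2 := Z.sσ hc
  have hs0 : 0 < s := by linarith
  have hc0 : 0 < c := by linarith
  have hK₁e : K₁ = 1600 * Real.log s + 400 * (120 + 4 * Real.log c) := by rw [hK₁]; exact Z.K₁e hc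
  have hK₁1 : 1 ≤ K₁ := by rw [hK₁]; exact Z.K₁1 hc
  have hK₁s : K₁ ≤ s := by rw [hK₁]; exact Z.K₁s hc
  have hL0' := Z.L0
  have hR0 := Z.R0
  have hrR := Z.rR
  have hD0 := Z.D0 hD1
  have hDinv := Z.Dinv hD1
  have b15 := Z.b15
  have hs2 : (100 : ℝ) ≤ s ^ 2 := by
    have := pow_le_pow_left₀ (by norm_num) hs10 2
    linarith
  refine ⟨hε0, hε1, hK₁1, ?_, Z.pl hCL hc hε0 hε1 hK₁, ?_, ?_⟩
  · have b9 := Z.b9
    have h1 := Z.L3
    linarith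
  · -- q
    have hm : 1 / (4 * s ^ 2) ≤ min D 1 := le_min hD1 (by
      rw [div_le_one (by positivity)]; linarith)
    have hm0 : 0 < 1 / (4 * s ^ 2) := by positivity
    have q1 : 3 * 10 ^ 10 * (5 * (c * s) + l + 1) ^ 4 / (min D 1) ^ 6 ≤
        3 * 10 ^ 10 * (7 * (c * s)) ^ 4 / (1 / (4 * s ^ 2)) ^ 6 := by
      apply div_le_div₀ (by positivity) _ (by positivity) (pow_le_pow_left₀ hm0.le hm 6)
      apply mul_le_mul_of_nonneg_left _ (by norm_num)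
      exact pow_le_pow_left₀ (by positivity) (by linarith) 4
    have q2 : 3 * 10 ^ 10 * (7 * (c * s)) ^ 4 / (1 / (4 * s ^ 2)) ^ 6 =
        3 * 10 ^ 10 * (7 * c) ^ 4 * 4096 * s ^ 16 := by
      rw [one_div, inv_pow, div_inv_eq_mul]; ring
    rw [q2] at q1
    refine le_trans ?_ Z.c5
    have q3 : 3 * 10 ^ 10 * (5 * (c * s) + l + 1) ^ 4 / (min D 1) ^ 6 * Real.exp (-s) ≤
        3 * 10 ^ 10 * (7 * c) ^ 4 * 4096 * s ^ 16 * R :=
      mul_le_mul q1 hrR (Real.exp_pos _).le (by positivity)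
    have q4 := mul_le_mul (mul_le_mul q3 hK₁s (by linarith) (by positivity)) hD2 hD0.le
      (by positivity)
    refine q4.trans (le_of_eq ?_)
    ring
  · -- rD
    have h1 : K₁ * Real.exp (-s) ≤ s * R := mul_le_mul hK₁s hrR (Real.exp_pos _).le hs0.le
    have h2 : s * R * (4 * s ^ 2) ≤ ε₁ := le_trans (le_of_eq (by ring)) Z.c6
    have h3 : ε₁ ≤ ε₁ * (D * (4 * s ^ 2)) := le_mul_of_one_le_right hε0.le hDinv
    have h4 : s * R * (4 * s ^ 2) ≤ ε₁ * D * (4 * s ^ 2) := by linarith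
    exact h1.trans (le_of_mul_le_mul_right h4 (by positivity))

theorem Sz.nu3 (Z : Sz C₁ e₁ e₂ CL CS l ε₁ c s R) (hC₁ : 1 ≤ C₁) (hCL : 1 ≤ CL) (hCS : 1 ≤ CS)
    (hl : 0 ≤ l) (hc : 2 ≤ c) (hε0 : 0 < ε₁)
    (hD1 : 1 / (4 * s ^ 2) ≤ D) {K₁ v : ℝ}
    (hv : v = 60 + 4 * Real.log (c * s)) (hK₁ : 400 * (v + 60) ≤ K₁) :
    Nu3 C₁ e₂ CS y D (Real.exp (-s)) (Real.log s ^ 3 / 2) K₁ (c * s) v ε₁ := by
  have hs10 := Z.s10
  have hσ2 := Z.sσ hc
  have hs0 : 0 < s := by linarith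
  have hc0 : 0 < c := by linarith
  have hσs : s ≤ c * s := by linarith
  have hσ1 : 1 ≤ c * s := by linarith
  have hL0' := Z.L0
  have hR0 := Z.R0
  have hrR := Z.rR
  have hD0 := Z.D0 hD1
  have hDinv := Z.Dinv hD1
  have b15 := Z.b15
  have b16 := Z.b16
  have b17 := Z.b17
  have hlσ := Z.lσ hc
  have hlc : 0 ≤ Real.log c := Real.log_nonneg (by linarith)
  have hL3 := Z.L3
  have b9 := Z.b9
  have c7 := Z.c7
  have c8 := Z.c8
  clear Z
  set σ := c * s with hσd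
  have hσ0 : 0 < σ := by linarith
  have he4 : Real.exp (v - 3) = Real.exp 57 * σ ^ 4 := by
    have h2 : σ ^ 4 = Real.exp (4 * Real.log σ) := by
      rw [show (4 : ℝ) * Real.log σ = (4 : ℕ) * Real.log σ by norm_num, Real.exp_nat_mul,
        Real.exp_log hσ0]
    rw [h2, ← Real.exp_add, hv]
    congr 1; ring
  have hv3' : σ ^ 4 ≤ Real.exp (v - 3) := by
    rw [he4]
    exact le_mul_of_one_le_left (by positivity) (Real.one_le_exp (by norm_num))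
  have hv3 : Real.exp (-(v - 3)) ≤ (σ ^ 4)⁻¹ := by
    rw [Real.exp_neg]
    exact inv_anti₀ (by positivity) hv3'
  have hsq : (10 * Real.exp (-(v - 3))) ^ 2 ≤ 100 * (σ ^ 8)⁻¹ := by
    have h1 : 10 * Real.exp (-(v - 3)) ≤ 10 * (σ ^ 4)⁻¹ :=
      mul_le_mul_of_nonneg_left hv3 (by norm_num)
    have h2 := pow_le_pow_left₀ (by positivity) h1 2
    refine h2.trans (le_of_eq ?_)
    rw [mul_pow, inv_pow, ← pow_mul]
    norm_num
  refine ⟨?_, ?_, hK₁, ?_, ?_, ?_, by linarith⟩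
  · rw [hv, hlσ]; linarith
  · rw [hv, hlσ]; linarith
  · -- lab
    rw [le_div_iff₀ (by positivity)]
    have h1 : 10 * CS * σ ≤ σ ^ 4 := by
      have h2 : 10 * CS ≤ σ := by linarith
      have h3 : σ ≤ σ ^ 3 := le_self_pow₀ hσ1 (by norm_num)
      calc 10 * CS * σ ≤ σ ^ 3 * σ := mul_le_mul_of_nonneg_right (h2.trans h3) hσ0.le
        _ = σ ^ 4 := by ring
    have h2 := h1.trans hv3'
    have h3 := mul_le_mul_of_nonneg_left h2 (Real.exp_pos (-s)).le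
    refine le_trans (le_of_eq ?_) h3
    ring
  · -- cl
    have h1 : CS * σ ^ 2 * (10 * Real.exp (-(v - 3))) ^ 2 ≤
        CS * σ ^ 2 * (100 * (σ ^ 8)⁻¹) := mul_le_mul_of_nonneg_left hsq (by positivity)
    have h2 : CS * σ ^ 2 * (100 * (σ ^ 8)⁻¹) = 100 * CS / σ ^ 6 := by field_simp
    rw [h2] at h1
    have h3 : 100 * CS / σ ^ 6 ≤ 1 / (8 * s ^ 2) := by
      rw [div_le_div_iff₀ (by positivity) (by positivity)]
      have h4 : s ^ 6 ≤ σ ^ 6 := pow_le_pow_left₀ hs0.le hσs 6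
      have h5 : s ≤ s ^ 4 := le_self_pow₀ (by linarith) (by norm_num)
      have h6 : 800 * CS * s ^ 2 ≤ s ^ 4 * s ^ 2 :=
        mul_le_mul_of_nonneg_right (by linarith) (by positivity)
      have h7 : s ^ 4 * s ^ 2 = s ^ 6 := by ring
      linarith
    have h4 : CS * C₁ * (10 * Real.exp (-s)) ≤ 1 / (8 * s ^ 2) := by
      rw [le_div_iff₀ (by positivity)]
      have h5 : CS * C₁ * (10 * Real.exp (-s)) * (8 * s ^ 2) ≤ CS * C₁ * (10 * R) * (8 * s ^ 2) := by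
        apply mul_le_mul_of_nonneg_right _ (by positivity)
        apply mul_le_mul_of_nonneg_left _ (by positivity)
        linarith
      refine h5.trans (le_trans (le_of_eq ?_) c7)
      ring
    have h5 : 1 / (8 * s ^ 2) + 1 / (8 * s ^ 2) = 1 / (4 * s ^ 2) := by field_simp; norm_num
    linarith
  · -- cs
    have h1 : CS * σ * (10 * Real.exp (-(v - 3))) ^ 2 ≤
        CS * σ * (100 * (σ ^ 8)⁻¹) := mul_le_mul_of_nonneg_left hsq (by positivity)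
    have h2 : CS * σ * (100 * (σ ^ 8)⁻¹) = 100 * CS / σ ^ 7 := by field_simp
    rw [h2] at h1
    refine h1.trans ?_
    rw [div_le_iff₀ (by positivity)]
    have h3 : 100 * CS ≤ ε₁ * s := by
      rw [div_le_iff₀ hε0] at b17
      linarith
    have h4 : s ≤ σ ^ 7 := hσs.trans (le_self_pow₀ hσ1 (by norm_num))
    exact h3.trans (mul_le_mul_of_nonneg_left h4 hε0.le)

end

end Vale.Agent.P097.CD
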