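import Vale.Agent.P097.H531.CD.Place

/-! # P097 / case [d]: from the place to the contradiction, steps (6)-(9) -/

set_option linter.all false

open Complex Metric Filter Topology Set
open scoped ComplexConjugate

namespace Vale.Agent.P097.CD

open Vale.Agent.P097 Vale.Agent.P097.TA Vale.Agent.P097.H202 Vale.Agent.P097.SC
open Vale.Agent.P097.H456.Fct

/-! ### reflection: from one-sided to two-sided -/

section
variable {κ Λ : ℝ} {H Φ : ℂ → ℂ} {r₀ e₀ : ℝ} {α p : ℂ → ℂ → ℂ} {J F q Q : ℂ → ℂ}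

/-- one-sided strip -/
def Os (a b : ℝ) (S : Set ℂ) : Set (ℂ × ℂ) := {t : ℂ | -a < t.im ∧ t.im < b} ×ˢ S

theorem isOpen_Os {a b : ℝ} {S : Set ℂ} (hS : IsOpen S) : IsOpen (Os a b S) := by
  have h1 : IsOpen {t : ℂ | -a < t.im ∧ t.im < b} := by
    have h2 : IsOpen {t : ℂ | -a < t.im} := isOpen_lt continuous_const (by fun_prop)
    have h3 : IsOpen {t : ℂ | t.im < b} := isOpen_lt (by fun_prop) continuous_const
    exact h2.inter h3
  exact h1.prod hS

/-- symmetric extension of one function -/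
theorem sym_ext {a b ρ : ℝ} (ha : 0 < a) (hab : a ≤ b) {A G : ℂ × ℂ → ℂ}
    (hA : ∀ t w : ℂ, |t.im| < a → ‖w‖ < ρ → A (conj t, conj w) = conj (A (t, w)))
    (hG : AnalyticOnNhd ℂ G (Os a b (ball 0 ρ)))
    (hGA : ∀ t w : ℂ, -a < t.im → t.im < a → ‖w‖ < ρ → G (t, w) = A (t, w)) :
    ∃ A' : ℂ × ℂ → ℂ, AnalyticOnNhd ℂ A' (Tb b ρ) ∧
      ∀ t w : ℂ, |t.im| < a → ‖w‖ < ρ → A' (t, w) = A (t, w) := by
  classical
  set G' : ℂ × ℂ → ℂ := fun u => conj (G (conj u.1, conj u.2)) with hG'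
  set S' : Set (ℂ × ℂ) := {t : ℂ | -b < t.im ∧ t.im < a} ×ˢ ball (0 : ℂ) ρ with hS'
  have oS' : IsOpen S' := by
    have h2 : IsOpen {t : ℂ | -b < t.im} := isOpen_lt continuous_const (by fun_prop)
    have h3 : IsOpen {t : ℂ | t.im < a} := isOpen_lt (by fun_prop) continuous_const
    exact (h2.inter h3).prod isOpen_ball
  have aG' : AnalyticOnNhd ℂ G' S' := by
    refine an_conj (isOpen_Os isOpen_ball) hG oS' fun u hu => ?_
    refine ⟨⟨?_, ?_⟩, ?_⟩
    · rw [conj_im]; linarith [hu.1.2]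
    · rw [conj_im]; linarith [hu.1.1]
    · have := hu.2
      simpa using this
  set A' : ℂ × ℂ → ℂ := fun u => if 0 < u.1.im then G u else G' u with hA'
  have e1 : ∀ t w : ℂ, |t.im| < a → ‖w‖ < ρ → G' (t, w) = A (t, w) := by
    intro t w ht hw
    have h1 := abs_lt.1 ht
    show conj (G (conj t, conj w)) = A (t, w)
    rw [hGA (conj t) (conj w) (by rw [conj_im]; linarith) (by rw [conj_im]; linarith)
      (by rwa [norm_conj]), hA t w ht hw, conj_conj]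
  have e2 : ∀ t w : ℂ, |t.im| < a → ‖w‖ < ρ → G (t, w) = A (t, w) := fun t w ht hw =>
    hGA t w (abs_lt.1 ht).1 (abs_lt.1 ht).2 hw
  have e3 : EqOn A' G (Os a b (ball 0 ρ)) := by
    rintro ⟨t, w⟩ ⟨⟨h1, h2⟩, h3⟩
    have hw : ‖w‖ < ρ := by simpa using h3
    show (if 0 < t.im then G (t, w) else G' (t, w)) = G (t, w)
    split_ifs with h
    · rfl
    · have ht : |t.im| < a := abs_lt.2 ⟨h1, by linarith [not_lt.1 h]⟩
      rw [e1 t w ht hw, e2 t w ht hw]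
  have e4 : EqOn A' G' S' := by
    rintro ⟨t, w⟩ ⟨⟨h1, h2⟩, h3⟩
    have hw : ‖w‖ < ρ := by simpa using h3
    show (if 0 < t.im then G (t, w) else G' (t, w)) = G' (t, w)
    split_ifs with h
    · have ht : |t.im| < a := abs_lt.2 ⟨by linarith, h2⟩
      rw [e1 t w ht hw, e2 t w ht hw]
    · rfl
  refine ⟨A', ?_, ?_⟩
  · rintro ⟨t, w⟩ ⟨h1, h2⟩
    have h1' := abs_lt.1 h1
    have hw : w ∈ ball (0 : ℂ) ρ := by simpa using h2
    by_cases h : -a < t.im
    · have hm : (t, w) ∈ Os a b (ball 0 ρ) := ⟨⟨h, h1'.2⟩, hw⟩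
      exact (hG _ hm).congr ((e3.eventuallyEq_of_mem ((isOpen_Os isOpen_ball).mem_nhds hm)).symm)
    · have hm : (t, w) ∈ S' := ⟨⟨h1'.1, by have := not_lt.1 h; simp only; linarith⟩, hw⟩
      exact (aG' _ hm).congr ((e4.eventuallyEq_of_mem (oS'.mem_nhds hm)).symm)
  · intro t w ht hw
    have h1 := abs_lt.1 ht
    have hm : (t, w) ∈ Os a b (ball 0 ρ) := ⟨⟨h1.1, by simp only; linarith⟩, by simpa using hw⟩
    rw [e3 hm, e2 t w ht hw]

theorem ext_of_sym (L : Lines κ Λ H Φ r₀ e₀ α p J) {a b ρ ρ' : ℝ} {A P G₁ G₂ : ℂ × ℂ → ℂ}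
    (T : Tu α p a ρ' A P) (hab : a ≤ b) (hρ : 0 < ρ) (hρρ : ρ ≤ ρ')
    (hG₁ : AnalyticOnNhd ℂ G₁ (Os a b (ball 0 ρ))) (hG₂ : AnalyticOnNhd ℂ G₂ (Os a b (ball 0 ρ)))
    (h₁ : ∀ t w : ℂ, -a < t.im → t.im < a → ‖w‖ < ρ → G₁ (t, w) = A (t, w))
    (h₂ : ∀ t w : ℂ, -a < t.im → t.im < a → ‖w‖ < ρ → G₂ (t, w) = P (t, w)) : Ext α p b ρ := by
  have ha := T.y0
  obtain ⟨A', a1, a2⟩ := sym_ext ha hab (fun t w ht hw => (T.conj L t w ⟨ht, hw.trans_le hρρ⟩).1)
    hG₁ h₁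
  obtain ⟨P', b1, b2⟩ := sym_ext ha hab (fun t w ht hw => (T.conj L t w ⟨ht, hw.trans_le hρρ⟩).2)
    hG₂ h₂
  refine ⟨A', P', ha.trans_le hab, hρ, a1, b1, fun t => ?_⟩
  have h3 : ∀ᶠ u : ℂ × ℂ in 𝓝 ((t : ℂ), (0 : ℂ)), u ∈ Tb a ρ :=
    (isOpen_Tb _ _).mem_nhds (zero_mem_Tb ha hρ t)
  filter_upwards [T.eq t, h3] with u hu hm
  have e1 := a2 u.1 u.2 hm.1 hm.2
  have e2 := b2 u.1 u.2 hm.1 hm.2
  rw [show ((u.1, u.2) : ℂ × ℂ) = u from rfl] at e1 e2
  rw [e1, e2]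
  exact hu

end

/-! ### identity theorem on the climb region -/

/-- half of the double sector region -/
theorem convex_half (c : ℂ) (D r v b : ℝ) (σ : ℝ) :
    Convex ℝ {u : ℂ × ℂ | |(u.1 - c).re| < 50 * D ∧ -(v + 2) * D < (u.1 - c).im ∧
      (u.1 - c).im < b ∧ ‖u.2‖ < 10 * r ∧ ‖u.2‖ / 40 < σ * u.2.im} := by
  have h1 : Convex ℝ {t : ℂ | |(t - c).re| < 50 * D ∧ -(v + 2) * D < (t - c).im ∧
      (t - c).im < b} := by
    have e : {t : ℂ | |(t - c).re| < 50 * D ∧ -(v + 2) * D < (t - c).im ∧ (t - c).im < b} =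
        {t : ℂ | c.re - 50 * D < reCLM t} ∩ {t : ℂ | reCLM t < c.re + 50 * D} ∩
        ({t : ℂ | c.im + -(v + 2) * D < imCLM t} ∩ {t : ℂ | imCLM t < c.im + b}) := by
      ext t
      simp only [mem_setOf_eq, mem_inter_iff, reCLM_apply, imCLM_apply, sub_re, sub_im, abs_lt]
      constructor
      · rintro ⟨⟨a1, a2⟩, a3, a4⟩
        exact ⟨⟨by linarith, by linarith⟩, by linarith, by linarith⟩
      · rintro ⟨⟨a1, a2⟩, a3, a4⟩
        exact ⟨⟨by linarith, by linarith⟩, by linarith, by linarith⟩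
    rw [e]
    exact ((convex_halfSpace_gt reCLM.toLinearMap.isLinear _).inter
      (convex_halfSpace_lt reCLM.toLinearMap.isLinear _)).inter
      ((convex_halfSpace_gt imCLM.toLinearMap.isLinear _).inter
      (convex_halfSpace_lt imCLM.toLinearMap.isLinear _))
  have h2 : Convex ℝ {w : ℂ | ‖w‖ < 10 * r ∧ ‖w‖ / 40 < σ * w.im} := by
    intro x hx y hy a b ha hb hab
    have n1 : ‖a • x + b • y‖ ≤ a * ‖x‖ + b * ‖y‖ := by
      refine (norm_add_le _ _).trans ?_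
      rw [norm_smul, norm_smul, Real.norm_of_nonneg ha, Real.norm_of_nonneg hb]
    have n2 : (a • x + b • y).im = a * x.im + b * y.im := by simp
    have hx1 := hx.1
    have hx2 := hx.2
    have hy1 := hy.1
    have hy2 := hy.2
    refine ⟨?_, ?_⟩
    · rcases ha.eq_or_lt with h | h
      · have hb1 : b = 1 := by linarith
        subst h; subst hb1
        linarith
      · have q1 := mul_lt_mul_of_pos_left hx1 h
        have q2 := mul_le_mul_of_nonneg_left hy1.le hb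
        have q3 : a * (10 * r) + b * (10 * r) = 10 * r := by rw [← add_mul, hab, one_mul]
        linarith
    · rw [n2]
      rcases ha.eq_or_lt with h | h
      · have hb1 : b = 1 := by linarith
        subst h; subst hb1
        linarith
      · have q1 := mul_lt_mul_of_pos_left hx2 h
        have q2 := mul_le_mul_of_nonneg_left hy2.le hb
        linarith
  have h3 := h1.prod h2
  have e : {u : ℂ × ℂ | |(u.1 - c).re| < 50 * D ∧ -(v + 2) * D < (u.1 - c).im ∧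
      (u.1 - c).im < b ∧ ‖u.2‖ < 10 * r ∧ ‖u.2‖ / 40 < σ * u.2.im} =
      {t : ℂ | |(t - c).re| < 50 * D ∧ -(v + 2) * D < (t - c).im ∧ (t - c).im < b} ×ˢ
      {w : ℂ | ‖w‖ < 10 * r ∧ ‖w‖ / 40 < σ * w.im} := by
    ext u
    simp only [mem_setOf_eq, mem_prod]
    tauto
  rw [e]
  exact h3

/-- agreement on `LoT ∩ UpR` from agreement on `LoR ∩ UpR` -/
theorem agree_up {c : ℂ} {D r v K : ℝ} (hD : 0 < D) (hr : 0 < r) (hv : 60 ≤ v)
    (hK : 100 ≤ K) {f f' : ℂ × ℂ → ℂ} (hf : AnalyticOnNhd ℂ f (LoT c D r v))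
    (hf' : AnalyticOnNhd ℂ f' (UpR c D r v))
    (h : ∀ u ∈ LoR c D r v K ∩ UpR c D r v, f' u = f u) :
    ∀ u ∈ LoT c D r v ∩ UpR c D r v, f' u = f u := by
  -- on each half
  have half : ∀ σ : ℝ, |σ| = 1 → EqOn f' f {u : ℂ × ℂ | |(u.1 - c).re| < 50 * D ∧
      -(v + 2) * D < (u.1 - c).im ∧ (u.1 - c).im < -(7 / 2) * D ∧ ‖u.2‖ < 10 * r ∧
      ‖u.2‖ / 40 < σ * u.2.im} := by
    intro σ hσ
    set V := {u : ℂ × ℂ | |(u.1 - c).re| < 50 * D ∧
      -(v + 2) * D < (u.1 - c).im ∧ (u.1 - c).im < -(7 / 2) * D ∧ ‖u.2‖ < 10 * r ∧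
      ‖u.2‖ / 40 < σ * u.2.im} with hV
    have hσ' : ∀ x : ℝ, σ * x ≤ |x| := fun x => by
      calc σ * x ≤ |σ * x| := le_abs_self _
        _ = |x| := by rw [abs_mul, hσ, one_mul]
    have s1 : V ⊆ LoT c D r v := fun u hu => ⟨hu.1, hu.2.1, hu.2.2.1, hu.2.2.2.1⟩
    have s2 : V ⊆ UpR c D r v := fun u hu => ⟨hu.1, hu.2.1, by
      have := hu.2.2.1
      have h4 : -(7 / 2) * D < 50 * D := by nlinarith
      exact this.trans h4, hu.2.2.2.1, hu.2.2.2.2.trans_le (hσ' _)⟩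
    set t₀ : ℂ := c - ((v + 1) * D : ℝ) * I with ht₀
    set w₀ : ℂ := ((5 * r * σ : ℝ) : ℂ) * I with hw₀
    have et : (t₀ - c).re = 0 ∧ (t₀ - c).im = -((v + 1) * D) := by
      constructor <;> simp [ht₀]
    have ew : w₀.im = 5 * r * σ ∧ ‖w₀‖ = 5 * r := by
      constructor
      · simp [hw₀]
      · rw [hw₀, norm_mul, norm_I, mul_one, norm_real, Real.norm_eq_abs, abs_mul, hσ, mul_one,
          abs_of_pos (by positivity)]
    have hσ2 : σ * σ = 1 := by rw [← abs_mul_abs_self σ, hσ]; norm_num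
    have h0 : (t₀, w₀) ∈ V := by
      refine ⟨?_, ?_, ?_, ?_, ?_⟩
      · show |(t₀ - c).re| < 50 * D
        rw [et.1, abs_zero]; positivity
      · show -(v + 2) * D < (t₀ - c).im
        rw [et.2]; nlinarith
      · show (t₀ - c).im < -(7 / 2) * D
        rw [et.2]; nlinarith
      · show ‖w₀‖ < 10 * r
        rw [ew.2]; linarith
      · show ‖w₀‖ / 40 < σ * w₀.im
        rw [ew.2, ew.1]
        have : σ * (5 * r * σ) = 5 * r := by
          calc σ * (5 * r * σ) = 5 * r * (σ * σ) := by ring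
            _ = 5 * r := by rw [hσ2, mul_one]
        rw [this]; linarith
    refine (hf'.mono s2).eqOn_of_preconnected_of_eventuallyEq (hf.mono s1)
      (convex_half c D r v (-(7 / 2) * D) σ).isPreconnected h0 ?_
    have o1 : IsOpen {u : ℂ × ℂ | |(u.1 - c).re| < 50 * D} :=
      isOpen_lt (by fun_prop) continuous_const
    have o2 : IsOpen {u : ℂ × ℂ | -(v + 2) * D < (u.1 - c).im} :=
      isOpen_lt continuous_const (by fun_prop)
    have o3 : IsOpen {u : ℂ × ℂ | (u.1 - c).im < -v * D} :=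
      isOpen_lt (by fun_prop) continuous_const
    have o4 : IsOpen {u : ℂ × ℂ | ‖u.2‖ < 10 * r} := isOpen_lt (by fun_prop) continuous_const
    have o5 : IsOpen {u : ℂ × ℂ | ‖u.2‖ / 40 < σ * u.2.im} :=
      isOpen_lt (by fun_prop) (by fun_prop)
    filter_upwards [o1.mem_nhds h0.1, o2.mem_nhds h0.2.1, o3.mem_nhds (show (t₀ - c).im < -v * D by
      rw [et.2]; nlinarith), o4.mem_nhds h0.2.2.2.1, o5.mem_nhds h0.2.2.2.2] with u a1 a2 a3 a4 a5
    have a1' : |(u.1 - c).re| < 50 * D := a1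
    have a2' : -(v + 2) * D < (u.1 - c).im := a2
    have a3' : (u.1 - c).im < -v * D := a3
    have a4' : ‖u.2‖ < 10 * r := a4
    have a5' : ‖u.2‖ / 40 < σ * u.2.im := a5
    refine h u ⟨⟨?_, a2', a3', a4'⟩, a1', a2', ?_, a4', a5'.trans_le (hσ' _)⟩
    · have : 50 * D ≤ K * D / 2 := by nlinarith
      exact a1'.trans_le this
    · have : -v * D ≤ 50 * D := by nlinarith
      exact a3'.trans_le this
  rintro u ⟨hu1, hu2⟩
  rcases le_or_gt 0 u.2.im with h0 | h0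
  · refine half 1 (by norm_num) ⟨hu1.1, hu1.2.1, hu1.2.2.1, hu1.2.2.2, ?_⟩
    have := hu2.2.2.2.2
    rw [abs_of_nonneg h0] at this
    linarith
  · refine half (-1) (by norm_num) ⟨hu1.1, hu1.2.1, hu1.2.2.1, hu1.2.2.2, ?_⟩
    have := hu2.2.2.2.2
    rw [abs_of_neg h0] at this
    linarith

end Vale.Agent.P097.CD
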